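import Crest.Agent.R246.H2.Defs

/-! Row 246, block H2: linear algebra and calculus near the cone.  Statements frozen (helper70). -/

set_option autoImplicit false
set_option linter.unusedSectionVars false

open MeasureTheory Metric Filter Topology Set Module
open scoped RealInnerProductSpace ENNReal ContDiff Real

noncomputable section

namespace Crest.Agent.R246.H2

variable {E : Type} [NormedAddCommGroup E] [InnerProductSpace ℝ E] [FiniteDimensional ℝ E]
  [MeasurableSpace E] [BorelSpace E]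

variable {F G H : Type} [NormedAddCommGroup F] [NormedSpace ℝ F] [NormedAddCommGroup G] [NormedSpace ℝ G]
  [NormedAddCommGroup H] [NormedSpace ℝ H] {C : Set E} {ψ : E → ℝ} {y : E}

/-! ### part a -/

/-- `LinearMap.trace_eq_sum_inner` -/
theorem trc_sum {ι : Type} [Fintype ι] (b : OrthonormalBasis ι ℝ E) (A : E →L[ℝ] E) :
    trc A = ∑ i, ⟪b i, A (b i)⟫ := by
  exact LinearMap.trace_eq_sum_inner _ b

theorem trc_smul (c : ℝ) (A : E →L[ℝ] E) : trc (c • A) = c * trc A := by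
  simp [trc]

/-- the trace as a continuous linear map -/
theorem exists_trcL : ∃ T : (E →L[ℝ] E) →L[ℝ] ℝ, ∀ A, T A = trc A := by
  exact ⟨LinearMap.toContinuousLinearMap (LinearMap.trace ℝ E ∘ₗ ContinuousLinearMap.coeLM ℝ), fun _ => rfl⟩

theorem prj_apply (ν v : E) : prj ν v = v - ⟪ν, v⟫ • ν := by
  rfl

theorem inner_prj (ν u v : E) : ⟪prj ν u, v⟫ = ⟪u, v⟫ - ⟪ν, u⟫ * ⟪ν, v⟫ := by
  rw [prj_apply, inner_sub_left, real_inner_smul_left]

theorem inner_grad (f : E → ℝ) (y v : E) : ⟪gradient f y, v⟫ = fderiv ℝ f y v := by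
  exact InnerProductSpace.toDual_symm_apply

theorem divT_const (a : E) (z : E × E) : divT (fun _ => a) z = 0 := by
  simp [divT, trc]

theorem divT_smul {φ : E → ℝ} {X : E → E} (ν : E) (hφ : DifferentiableAt ℝ φ y) (hX : DifferentiableAt ℝ X y) :
    divT (fun z => φ z • X z) (y, ν) = ⟪prj ν (gradient φ y), X y⟫ + φ y * divT X (y, ν) := by
  let b := stdOrthonormalBasis ℝ E
  simp only [divT, (hφ.hasFDerivAt.fun_smul hX.hasFDerivAt).fderiv, trc_sum b, add_apply, smul_apply,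
    ContinuousLinearMap.smulRight_apply, inner_add_right, real_inner_smul_right, ← inner_grad, inner_prj,
    Finset.sum_add_distrib, ← Finset.mul_sum, b.sum_inner_mul_inner, real_inner_comm (gradient φ y) ν]
  ring

theorem Sm.at {f : E → F} (h : Sm C f) (hy : y ∈ C) (h0 : y ≠ 0) : ContDiffAt ℝ ∞ f y := by
  obtain ⟨U, hU, hC, hf⟩ := h
  exact hf.contDiffAt (hU.mem_nhds (hC ⟨hy, h0⟩))

theorem Sm.diff {f : E → F} (h : Sm C f) (hy : y ∈ C) (h0 : y ≠ 0) : DifferentiableAt ℝ f y :=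
  (h.at hy h0).differentiableAt (by simp)

theorem Sm.cont {f : E → F} (h : Sm C f) : ContinuousOn f (C \ {0}) := by
  exact fun y hy => (h.at hy.1 hy.2).continuousAt.continuousWithinAt

theorem Sm.of_ne {f : E → F} (h : ∀ y, y ≠ 0 → ContDiffAt ℝ ∞ f y) : Sm C f := by
  exact ⟨{0}ᶜ, isOpen_compl_singleton, fun y hy => hy.2, fun y hy => (h y hy).contDiffWithinAt⟩

theorem Sm.const (c : F) : Sm C fun _ : E => c := by
  exact Sm.of_ne fun _ _ => contDiffAt_const

theorem Sm.comp2 {f : E → F} {g : E → G} (hf : Sm C f) (hg : Sm C g) {Φ : F × G → H} (hΦ : ContDiff ℝ ∞ Φ) :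
    Sm C fun y => Φ (f y, g y) := by
  obtain ⟨U, hU, hC, hf⟩ := hf
  obtain ⟨V, hV, hC', hg⟩ := hg
  exact ⟨U ∩ V, hU.inter hV, subset_inter hC hC',
    hΦ.comp_contDiffOn ((hf.mono inter_subset_left).prodMk (hg.mono inter_subset_right))⟩

theorem Sm.comp {f : E → F} (hf : Sm C f) {Φ : F → H} (hΦ : ContDiff ℝ ∞ Φ) : Sm C fun y => Φ (f y) := by
  exact hf.comp2 hf (hΦ.comp contDiff_fst)

theorem Sm.add {f g : E → F} (hf : Sm C f) (hg : Sm C g) : Sm C fun y => f y + g y := by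
  exact hf.comp2 hg (contDiff_fst.add contDiff_snd)

theorem Sm.sub {f g : E → F} (hf : Sm C f) (hg : Sm C g) : Sm C fun y => f y - g y := by
  exact hf.comp2 hg (contDiff_fst.sub contDiff_snd)

theorem Sm.smul {f : E → ℝ} {g : E → F} (hf : Sm C f) (hg : Sm C g) : Sm C fun y => f y • g y := by
  exact hf.comp2 hg (contDiff_fst.smul contDiff_snd)

theorem Sm.mul {f g : E → ℝ} (hf : Sm C f) (hg : Sm C g) : Sm C fun y => f y * g y := hf.smul hg

theorem Sm.pow {f : E → ℝ} (hf : Sm C f) (n : ℕ) : Sm C fun y => f y ^ n := by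
  exact hf.comp (contDiff_id.pow n)

theorem Sm.inner {f g : E → E} (hf : Sm C f) (hg : Sm C g) : Sm C fun y => ⟪f y, g y⟫ := by
  exact hf.comp2 hg (contDiff_fst.inner ℝ contDiff_snd)

theorem Sm.apply {A : E → F →L[ℝ] G} {f : E → F} (hA : Sm C A) (hf : Sm C f) : Sm C fun y => A y (f y) := by
  exact hA.comp2 hf (contDiff_fst.clm_apply contDiff_snd)

theorem Sm.norm : Sm C fun y : E => ‖y‖ := by
  exact Sm.of_ne fun _ h => contDiffAt_norm ℝ h

theorem Sm.fderiv {f : E → F} (hf : Sm C f) : Sm C (fderiv ℝ f) := by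
  obtain ⟨U, hU, hC, hf⟩ := hf
  exact ⟨U, hU, hC, hf.fderiv_of_isOpen hU (by simp)⟩

theorem exists_J : ∃ J : (E →L[ℝ] ℝ) →L[ℝ] E, ∀ f : E → ℝ, gradient f = fun y => J (fderiv ℝ f y) :=
  ⟨LinearMap.toContinuousLinearMap ⟨⟨(InnerProductSpace.toDual ℝ E).symm, map_add _⟩, fun c l => by simp⟩,
    fun _ => rfl⟩

theorem Sm.grad {f : E → ℝ} (hf : Sm C f) : Sm C (gradient f) := by
  obtain ⟨J, hJ⟩ := exists_J (E := E)
  rw [hJ]
  exact hf.fderiv.comp J.contDiff

theorem sm_xi (a : E) : Sm C (xi a) := by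
  exact Sm.of_ne fun y h => contDiffAt_const.inner ℝ
    (((contDiffAt_norm ℝ h).inv (norm_ne_zero_iff.2 h)).smul contDiffAt_id)

theorem hom_xi (a : E) : Hom0 (xi a) := by
  intro t ht y
  simp only [xi, norm_smul, Real.norm_of_nonneg ht.le, smul_smul]
  congr 2
  rw [mul_inv, mul_comm, ← mul_assoc, mul_inv_cancel₀ ht.ne', one_mul]

theorem abs_xi_le (a y : E) : |xi a y| ≤ ‖a‖ := by
  refine (abs_real_inner_le_norm _ _).trans (mul_le_of_le_one_right (norm_nonneg _) ?_)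
  rw [norm_smul, norm_inv, norm_norm]
  exact inv_mul_le_one

theorem grad_norm (h0 : y ≠ 0) : gradient (fun z : E => ‖z‖) y = ‖y‖⁻¹ • y := by
  have hy : ‖y‖ ≠ 0 := norm_ne_zero_iff.2 h0
  have h := (hasStrictFDerivAt_norm_sq y).hasFDerivAt.sqrt (pow_ne_zero 2 hy)
  simp only [Real.sqrt_sq (norm_nonneg _)] at h
  refine ext_inner_right ℝ fun v => ?_
  rw [inner_grad, h.fderiv]
  simp [real_inner_smul_left]
  field_simp

theorem grad_xi (a : E) (h0 : y ≠ 0) : gradient (xi a) y = ‖y‖⁻¹ • (a - xi a y • ‖y‖⁻¹ • y) := by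
  have hy : ‖y‖ ≠ 0 := norm_ne_zero_iff.2 h0
  have dn := (Sm.norm (C := univ)).diff (mem_univ y) h0
  have h := ((hasDerivAt_inv hy).comp_hasFDerivAt y dn.hasFDerivAt).fun_mul (innerSL ℝ a).hasFDerivAt
  have e : xi a = fun z => ((fun t : ℝ => t⁻¹) ∘ fun z : E => ‖z‖) z * innerSL ℝ a z := by
    ext z; simp [xi, real_inner_smul_right]
  refine ext_inner_right ℝ fun v => ?_
  rw [inner_grad, e, h.fderiv]
  simp [← inner_grad, grad_norm h0, real_inner_smul_left, inner_sub_left]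
  field_simp
  ring

theorem grad_add {f g : E → ℝ} (hf : DifferentiableAt ℝ f y) (hg : DifferentiableAt ℝ g y) :
    gradient (fun z => f z + g z) y = gradient f y + gradient g y := by
  refine ext_inner_right ℝ fun v => ?_
  simp [inner_add_left, inner_grad, fderiv_fun_add hf hg]

theorem grad_mul {f g : E → ℝ} (hf : DifferentiableAt ℝ f y) (hg : DifferentiableAt ℝ g y) :
    gradient (fun z => f z * g z) y = g y • gradient f y + f y • gradient g y := by
  refine ext_inner_right ℝ fun v => ?_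
  simp [inner_add_left, real_inner_smul_left, inner_grad, fderiv_fun_mul hf hg, add_comm]

theorem grad_comp {f : E → ℝ} {g : ℝ → ℝ} {c : ℝ} (hf : DifferentiableAt ℝ f y) (hg : HasDerivAt g c (f y)) :
    gradient (fun z => g (f z)) y = c • gradient f y := by
  refine ext_inner_right ℝ fun v => ?_
  rw [real_inner_smul_left, inner_grad, inner_grad]
  exact congrArg (fun L : E →L[ℝ] ℝ => L v) (hg.comp_hasFDerivAt y hf.hasFDerivAt).fderiv

/-- `fderiv_comp_smul` -/
theorem hom_fderiv {f : E → F} (hf : Hom0 f) {t : ℝ} (ht : 0 < t) (y : E) :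
    fderiv ℝ f (t • y) = t⁻¹ • fderiv ℝ f y := by
  have e : (fun z => f (t • z)) = f := funext (hf t ht)
  have := fderiv_comp_smul (𝕜 := ℝ) (f := f) (x := y) t
  rw [e] at this
  rw [this, smul_smul, inv_mul_cancel₀ ht.ne', one_smul]

theorem hom_grad {f : E → ℝ} (hf : Hom0 f) {t : ℝ} (ht : 0 < t) (y : E) :
    gradient f (t • y) = t⁻¹ • gradient f y := by
  obtain ⟨J, hJ⟩ := exists_J (E := E)
  simp only [hJ, hom_fderiv hf ht, map_smul]

/-- Euler's identity: differentiate `t ↦ f (t • y)` at `t = 1` -/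
theorem hom_euler {f : E → F} (hf : Hom0 f) (hd : DifferentiableAt ℝ f y) : fderiv ℝ f y y = 0 := by
  have h1 : HasDerivAt (fun t : ℝ => t • y) y 1 := by simpa using (hasDerivAt_id (1 : ℝ)).smul_const y
  refine (hd.hasFDerivAt.comp_hasDerivAt_of_eq 1 h1 (one_smul _ _).symm).unique
    ((hasDerivAt_const (1 : ℝ) (f y)).congr_of_eventuallyEq ?_)
  filter_upwards [lt_mem_nhds (show (0 : ℝ) < 1 by norm_num)] with t ht using hf t ht y

/-! ### part b -/

theorem mem_iff (h : SMC C ψ) : y ∈ C ↔ ψ y = 0 := by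
  rw [h.closed.mem_iff_infDist_zero ⟨0, h.zero_mem⟩, ← h.abs_eq, abs_eq_zero]

theorem sm_psi (h : SMC C ψ) : Sm C ψ := by
  obtain ⟨U, hU, hC, hs, -⟩ := h.smooth
  exact ⟨U, hU, hC, hs⟩

theorem sm_hess (h : SMC C ψ) : Sm C (hess ψ) := (sm_psi h).grad.fderiv

/-- `fderiv_comp_smul`, `fderiv_const_smul_field` (no differentiability is needed) -/
theorem hom_nu (h : SMC C ψ) : Hom0 (gradient ψ) := by
  intro t ht y
  obtain ⟨J, hJ⟩ := exists_J (E := E)
  have e : (fun z => ψ (t • z)) = t • ψ := funext (h.homog t ht)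
  have := fderiv_comp_smul (𝕜 := ℝ) (f := ψ) (x := y) t
  rw [e, fderiv_const_smul_field, Pi.smul_apply] at this
  simp only [hJ, smul_right_injective _ ht.ne' this]

theorem hess_smul (h : SMC C ψ) {t : ℝ} (ht : 0 < t) (y : E) : hess ψ (t • y) = t⁻¹ • hess ψ y :=
  hom_fderiv (hom_nu h) ht y

theorem norm_nu (h : SMC C ψ) (hy : y ∈ C) (h0 : y ≠ 0) : ‖gradient ψ y‖ = 1 := by
  obtain ⟨U, -, hC, -, hn⟩ := h.smooth
  exact hn y (hC ⟨hy, h0⟩)

/-- `t ↦ ψ (t • y)` vanishes for `t > 0` -/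
theorem nu_self (h : SMC C ψ) (hy : y ∈ C) (h0 : y ≠ 0) : ⟪gradient ψ y, y⟫ = 0 := by
  have h1 : HasDerivAt (fun t : ℝ => t • y) y 1 := by simpa using (hasDerivAt_id (1 : ℝ)).smul_const y
  rw [inner_grad]
  refine (((sm_psi h).diff hy h0).hasFDerivAt.comp_hasDerivAt_of_eq 1 h1 (one_smul _ _).symm).unique
    ((hasDerivAt_const (1 : ℝ) (0 : ℝ)).congr_of_eventuallyEq ?_)
  filter_upwards [lt_mem_nhds (show (0 : ℝ) < 1 by norm_num)] with t ht
  exact (mem_iff h).1 (h.smul_mem t ht y hy)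

/-- `ContDiffAt.isSymmSndFDerivAt` -/
theorem hess_symm (hd : ContDiffAt ℝ 2 ψ y) (u v : E) : ⟪hess ψ y u, v⟫ = ⟪u, hess ψ y v⟫ := by
  have hd' : DifferentiableAt ℝ (fderiv ℝ ψ) y :=
    (hd.fderiv_right (m := 1) (by norm_num)).differentiableAt one_ne_zero
  have e : ∀ u v, ⟪hess ψ y u, v⟫ = fderiv ℝ (fderiv ℝ ψ) y u v := fun u v => by
    obtain ⟨J, hJ⟩ := exists_J (E := E)
    have h1 : hess ψ y = J ∘L fderiv ℝ (fderiv ℝ ψ) y := by
      rw [hess, hJ]; exact (J.hasFDerivAt.comp y hd'.hasFDerivAt).fderiv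
    have h2 := congrFun (hJ (fderiv ℝ (fderiv ℝ ψ) y u)) 0
    rw [ContinuousLinearMap.fderiv] at h2
    rw [h1, ContinuousLinearMap.comp_apply, ← h2, inner_grad, ContinuousLinearMap.fderiv]
  rw [e, real_inner_comm, e]
  exact hd.isSymmSndFDerivAt (by simp) u v

/-- differentiate `⟪ν, ν⟫ = 1` on the open set of `SMC.smooth`, `hess_symm` -/
theorem hess_nu_ev (h : SMC C ψ) (hy : y ∈ C) (h0 : y ≠ 0) : ∀ᶠ z in 𝓝 y, hess ψ z (gradient ψ z) = 0 := by
  obtain ⟨U, hU, hC, hs, hn⟩ := h.smooth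
  filter_upwards [hU.mem_nhds (hC ⟨hy, h0⟩)] with z hz
  have h2 : ContDiffAt ℝ 2 ψ z :=
    (hs.contDiffAt (hU.mem_nhds hz)).of_le (WithTop.coe_le_coe.2 (le_top : (2 : ℕ∞) ≤ ⊤))
  have hd : HasFDerivAt (gradient ψ) (hess ψ z) z := by
    obtain ⟨J, hJ⟩ := exists_J (E := E)
    refine DifferentiableAt.hasFDerivAt ?_
    rw [hJ]
    exact J.differentiableAt.comp z ((h2.fderiv_right (m := 1) (by norm_num)).differentiableAt one_ne_zero)
  have h3 := (hd.inner ℝ hd).unique ((hasFDerivAt_const (1 : ℝ) z).congr_of_eventuallyEq (by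
    filter_upwards [hU.mem_nhds hz] with w hw
    rw [real_inner_self_eq_norm_sq, hn w hw]; norm_num))
  refine ext_inner_right ℝ fun v => ?_
  have h4 := congrArg (fun L : E →L[ℝ] ℝ => L v) h3
  simp only [ContinuousLinearMap.comp_apply, ContinuousLinearMap.prod_apply, fderivInnerCLM_apply,
    zero_apply, real_inner_comm (gradient ψ z)] at h4
  rw [hess_symm h2, inner_zero_left]
  linarith

theorem hess_nu (h : SMC C ψ) (hy : y ∈ C) (h0 : y ≠ 0) : hess ψ y (gradient ψ y) = 0 :=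
  (hess_nu_ev h hy h0).self_of_nhds

theorem hess_self (h : SMC C ψ) (hy : y ∈ C) (h0 : y ≠ 0) : hess ψ y y = 0 :=
  hom_euler (hom_nu h) ((sm_psi h).grad.diff hy h0)

theorem grad_be (h : SMC C ψ) (a : E) (hy : y ∈ C) (h0 : y ≠ 0) : gradient (be ψ a) y = hess ψ y a := by
  refine ext_inner_right ℝ fun v => ?_
  rw [inner_grad, hess_symm (((sm_psi h).at hy h0).of_le (WithTop.coe_le_coe.2 (le_top : (2 : ℕ∞) ≤ ⊤)))]
  exact congrArg (fun L : E →L[ℝ] ℝ => L v)
    ((innerSL ℝ a).hasFDerivAt.comp y ((sm_psi h).grad.diff hy h0).hasFDerivAt).fderiv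

theorem adm_be (h : SMC C ψ) (a : E) : Adm C (be ψ a) := by
  exact ⟨fun t ht y => by simp only [be, hom_nu h t ht y], (Sm.const a).inner (sm_psi h).grad⟩

theorem adm_A2 (h : SMC C ψ) : Adm C (A2 ψ) := by
  obtain ⟨T, hT⟩ := exists_trcL (E := E)
  refine ⟨fun t ht y => ?_, ?_⟩
  · simp only [A2, hess_smul h ht, ContinuousLinearMap.smul_comp, ContinuousLinearMap.comp_smul, trc_smul,
      norm_smul, Real.norm_of_nonneg ht.le]
    field_simp
  · have := (Sm.norm.pow 2).mul ((sm_hess h).comp (T.contDiff.comp (contDiff_id.clm_comp contDiff_id)))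
    simp only [Function.comp_apply, hT, id] at this
    exact this

/-- `trc_sum`, `hess_symm` -/
theorem A2_nonneg (h : SMC C ψ) (hy : y ∈ C) (h0 : y ≠ 0) : 0 ≤ A2 ψ y := by
  rw [A2, trc_sum (stdOrthonormalBasis ℝ E)]
  refine mul_nonneg (sq_nonneg _) (Finset.sum_nonneg fun i _ => ?_)
  rw [ContinuousLinearMap.comp_apply,
    ← hess_symm (((sm_psi h).at hy h0).of_le (WithTop.coe_le_coe.2 (le_top : (2 : ℕ∞) ≤ ⊤)))]
  exact real_inner_self_nonneg

/-! ### part c -/

/-- A function vanishing on the cone has no tangential derivative.  `g` is `L`-Lipschitz on a ball around `y`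
not containing `0` (`ContDiffAt.exists_lipschitzOnWith`); for `z = y + t u` take a nearest point `z' ∈ C`
(`IsClosed.exists_infDist_eq_dist`), `dist z z' ≤ dist z y`, so `‖g z‖ ≤ L |ψ z| = o(t)`. -/
theorem tangent (h : SMC C ψ) {g : E → F} (hg : Sm C g) (hz : ∀ z ∈ C, z ≠ 0 → g z = 0) (hy : y ∈ C)
    (h0 : y ≠ 0) {u : E} (hu : ⟪gradient ψ y, u⟫ = 0) : fderiv ℝ g y u = 0 := by
  obtain ⟨L, s, hs, hL⟩ := ((hg.at hy h0).of_le (show (1 : WithTop ℕ∞) ≤ _ by simp)).exists_lipschitzOnWith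
  obtain ⟨r, hr, hb⟩ := Metric.mem_nhds_iff.1 (inter_mem hs (isOpen_compl_singleton.mem_nhds h0))
  have h1 : ∀ z ∈ ball y (r / 2), ‖g z‖ ≤ L * ‖ψ z‖ := fun z hz' => by
    obtain ⟨w, hw, e⟩ := h.closed.exists_infDist_eq_dist ⟨0, h.zero_mem⟩ z
    have h2 : dist z w ≤ dist z y := e ▸ infDist_le_dist_of_mem hy
    have h3 : w ∈ ball y r := by
      rw [mem_ball] at hz' ⊢
      linarith [dist_triangle_left w y z]
    have := hL.dist_le_mul z (hb (ball_subset_ball (by linarith) hz')).1 w (hb h3).1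
    rwa [hz w hw (hb h3).2, dist_zero_right, ← e, ← h.abs_eq] at this
  have hl : HasDerivAt (fun t : ℝ => y + t • u) u 0 := by
    simpa using ((hasDerivAt_id (0 : ℝ)).smul_const u).const_add y
  have d1 := ((sm_psi h).diff hy h0).hasFDerivAt.comp_hasDerivAt_of_eq 0 hl (by simp)
  rw [← inner_grad, hu, hasDerivAt_iff_isLittleO] at d1
  refine ((hg.diff hy h0).hasFDerivAt.comp_hasDerivAt_of_eq 0 hl (by simp)).unique ?_
  rw [hasDerivAt_iff_isLittleO]
  refine (Asymptotics.IsBigO.of_bound L ?_).trans_isLittleO d1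
  have : ∀ᶠ t in 𝓝 (0 : ℝ), y + t • u ∈ ball y (r / 2) :=
    hl.continuousAt.eventually (isOpen_ball.mem_nhds (by simpa using hr))
  filter_upwards [this] with t ht
  simpa [hz y hy h0, (mem_iff h).1 hy] using h1 _ ht

/-- `ContDiffAt.isSymmSndFDerivAt` for `gradient ψ` -/
theorem third_symm (h : SMC C ψ) (hy : y ∈ C) (h0 : y ≠ 0) (u v : E) :
    fderiv ℝ (hess ψ) y u v = fderiv ℝ (hess ψ) y v u := by
  exact ((sm_psi h).grad.at hy h0).isSymmSndFDerivAt
    (by simpa using WithTop.coe_le_coe.2 (le_top : (2 : ℕ∞) ≤ ⊤)) u v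

/-- differentiate `hess_nu_ev` -/
theorem third_nu (h : SMC C ψ) (hy : y ∈ C) (h0 : y ≠ 0) (u : E) :
    fderiv ℝ (hess ψ) y u (gradient ψ y) = -hess ψ y (hess ψ y u) := by
  have h1 := (((sm_hess h).diff hy h0).hasFDerivAt.clm_apply ((sm_psi h).grad.diff hy h0).hasFDerivAt).unique
    ((hasFDerivAt_const (0 : E) y).congr_of_eventuallyEq (hess_nu_ev h hy h0))
  have h2 := congrArg (fun L : E →L[ℝ] E => L u) h1
  simp only [add_apply, ContinuousLinearMap.comp_apply, ContinuousLinearMap.flip_apply, zero_apply] at h2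
  exact eq_neg_of_add_eq_zero_right h2

/-- With `T = fderiv (hess ψ) y`: the derivative of `z ↦ H z a` is `T a` (`third_symm`), `⟪ν, T a ν⟫ = 0`,
`trc (T a) = ∂_a lap ψ = ⟪ν, a⟫ trc (T ν)` (`tangent` for `lap ψ`, `exists_trcL`), `T ν = -H ∘ H`. -/
theorem divT_hess (h : SMC C ψ) (a : E) (hy : y ∈ C) (h0 : y ≠ 0) :
    divT (fun z => hess ψ z a) (y, gradient ψ y) = -(trc (hess ψ y ∘L hess ψ y) * be ψ a y) := by
  obtain ⟨T, hT⟩ := exists_trcL (E := E)
  have hd := ((sm_hess h).diff hy h0).hasFDerivAt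
  have h1 : fderiv ℝ (fun z => hess ψ z a) y = fderiv ℝ (hess ψ) y a := by
    ext w
    rw [(hd.clm_apply (hasFDerivAt_const a y)).fderiv, third_symm h hy h0]
    simp
  have h2 : fderiv ℝ (hess ψ) y (gradient ψ y) = -(hess ψ y ∘L hess ψ y) := by
    ext w
    rw [third_symm h hy h0, third_nu h hy h0]
    rfl
  have h3 := tangent h ((sm_hess h).comp T.contDiff) (fun z hz h0 => (hT _).trans (h.minimal z hz h0)) hy h0
    (u := a - ⟪gradient ψ y, a⟫ • gradient ψ y)
    (by rw [inner_sub_right, real_inner_smul_right, real_inner_self_eq_norm_sq, norm_nu h hy h0]; ring)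
  rw [show fderiv ℝ (fun z => T (hess ψ z)) y = _ from (T.hasFDerivAt.comp y hd).fderiv] at h3
  simp only [ContinuousLinearMap.comp_apply, map_sub, map_smul, h2, map_neg, smul_eq_mul] at h3
  simp only [hT] at h3
  simp only [divT, h1, third_nu h hy h0, inner_neg_right, be]
  rw [← hess_symm (((sm_psi h).at hy h0).of_le (WithTop.coe_le_coe.2 (le_top : (2 : ℕ∞) ≤ ⊤))), hess_nu h hy h0,
    inner_zero_left, real_inner_comm]
  linarith

end Crest.Agent.R246.H2
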