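import Crest.Agent.R246.H2.NoBeta

/-! Row 246, block H2: the cone is a Clifford cone.  Statements frozen (helper70). -/

set_option autoImplicit false
set_option linter.unusedSectionVars false

open MeasureTheory Metric Filter Topology Set Module
open scoped RealInnerProductSpace ENNReal ContDiff Real

noncomputable section

namespace Crest.Agent.R246.H2

variable {E : Type} [NormedAddCommGroup E] [InnerProductSpace ℝ E] [FiniteDimensional ℝ E]
  [MeasurableSpace E] [BorelSpace E]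

variable {d : ℕ} {C : Set E} {ψ : E → ℝ} {B : E →L[ℝ] E} {y : E}

/-! ### part a -/

/-- `M` is onto (a vector orthogonal to its range is orthogonal to `C`, `span`), hence invertible -/
theorem Ctx.exists_B (c : Ctx d C ψ) {M : E →L[ℝ] E} (hM : ∀ y ∈ C, y ≠ 0 → M (gradient ψ y) = ‖y‖⁻¹ • y) :
    ∃ B : E →L[ℝ] E, ∀ y ∈ C, y ≠ 0 → B y = ‖y‖ • gradient ψ y := by
  have hs : Function.Surjective (M : E →ₗ[ℝ] E) := by
    rw [← LinearMap.range_eq_top, ← Submodule.orthogonal_eq_bot_iff, Submodule.eq_bot_iff]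
    intro a ha
    refine c.span fun y hy => ?_
    rcases eq_or_ne y 0 with rfl | h0
    · simp
    have h1 := (Submodule.mem_orthogonal' _ _).1 ha _ ⟨gradient ψ y, rfl⟩
    rw [ContinuousLinearMap.coe_coe, hM y hy h0, inner_smul_right] at h1
    simpa [h0] using h1
  let e := LinearEquiv.ofBijective (M : E →ₗ[ℝ] E) ⟨LinearMap.injective_iff_surjective.2 hs, hs⟩
  refine ⟨LinearMap.toContinuousLinearMap e.symm.toLinearMap, fun y hy h0 => ?_⟩
  have h2 : e (‖y‖ • gradient ψ y) = y := by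
    have : e (gradient ψ y) = ‖y‖⁻¹ • y := hM y hy h0
    rw [map_smul, this, smul_smul, mul_inv_cancel₀ (norm_ne_zero_iff.2 h0), one_smul]
  exact e.symm_apply_eq.2 h2.symm

/-- `tangent` for `z ↦ B z - ‖z‖ • ν z` -/
theorem B_tan (h : SMC C ψ) (hB : ∀ y ∈ C, y ≠ 0 → B y = ‖y‖ • gradient ψ y) (hy : y ∈ C) (h0 : y ≠ 0)
    {u : E} (hu : ⟪gradient ψ y, u⟫ = 0) : B u = xi u y • gradient ψ y + ‖y‖ • hess ψ y u := by
  have hg : Sm C fun z => B z - ‖z‖ • gradient ψ z :=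
    (Sm.of_ne fun z _ => B.contDiff.contDiffAt).sub (Sm.norm.smul (sm_psi h).grad)
  have h1 := tangent h hg (fun z hz h0 => sub_eq_zero.2 (hB z hz h0)) hy h0 hu
  have dn : DifferentiableAt ℝ (fun z : E => ‖z‖) y := Sm.norm.diff hy h0
  have dν : DifferentiableAt ℝ (gradient ψ) y := (sm_psi h).grad.diff hy h0
  rw [(B.hasFDerivAt.fun_sub (dn.hasFDerivAt.fun_smul dν.hasFDerivAt)).fderiv] at h1
  simp only [ContinuousLinearMap.sub_apply, ContinuousLinearMap.add_apply, ContinuousLinearMap.smul_apply,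
    ContinuousLinearMap.smulRight_apply] at h1
  rw [← inner_grad, grad_norm h0, real_inner_comm] at h1
  rw [sub_eq_zero.1 h1, add_comm]
  rfl

/-- `S = B - B†` is skew and `⟪S u, u'⟫ = 0` for `u, u' ⊥ ν y` (`B_tan`, `hess_symm`), so
`S u = ⟪ν, u⟫ S ν - ⟪S ν, u⟫ ν` for every `y`.  If `S ≠ 0` then `S ν ≠ 0`, `⟪ν, S ν⟫ = 0`, so `ν y` is in the range
of `S`, which lies in the span of `ν y₀, S (ν y₀)`; a non-zero vector orthogonal to these two contradicts `nb`. -/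
theorem Ctx.B_symm (c : Ctx d C ψ) (hB : ∀ y ∈ C, y ≠ 0 → B y = ‖y‖ • gradient ψ y) (u w : E) :
    ⟪B u, w⟫ = ⟪u, B w⟫ := by
  have h := c.smc
  have key : ∀ y ∈ C, y ≠ 0 → ∀ u w : E, ⟪B u, w⟫ - ⟪u, B w⟫ =
      ⟪gradient ψ y, w⟫ * (⟪B u, gradient ψ y⟫ - ⟪u, B (gradient ψ y)⟫) +
      ⟪gradient ψ y, u⟫ * (⟪B (gradient ψ y), w⟫ - ⟪gradient ψ y, B w⟫) := by
    intro y hy h0 u w
    have hn : ⟪gradient ψ y, gradient ψ y⟫ = 1 := by rw [real_inner_self_eq_norm_sq, norm_nu h hy h0]; norm_num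
    have hp : ∀ x : E, ⟪gradient ψ y, x - ⟪gradient ψ y, x⟫ • gradient ψ y⟫ = 0 := fun x => by
      rw [inner_sub_right, inner_smul_right, hn]; ring
    have h1 : ⟪B (u - ⟪gradient ψ y, u⟫ • gradient ψ y), w - ⟪gradient ψ y, w⟫ • gradient ψ y⟫ =
        ⟪u - ⟪gradient ψ y, u⟫ • gradient ψ y, B (w - ⟪gradient ψ y, w⟫ • gradient ψ y)⟫ := by
      rw [B_tan h hB hy h0 (hp u), B_tan h hB hy h0 (hp w), inner_add_left, inner_add_right, real_inner_smul_left,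
        real_inner_smul_left, real_inner_smul_right, real_inner_smul_right, hp,
        real_inner_comm (gradient ψ y), hp, hess_symm (((sm_psi h).at hy h0).of_le (WithTop.coe_le_coe.2 (le_top : (2 : ℕ∞) ≤ ⊤)))]
      ring
    simp only [map_sub, map_smul, inner_sub_left, inner_sub_right, real_inner_smul_left,
      real_inner_smul_right] at h1
    rw [real_inner_comm (gradient ψ y) (B (gradient ψ y))] at h1
    linarith
  obtain ⟨y₀, hy₀, h0₀⟩ := c.exists_ne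
  let L : E →L[ℝ] ℝ × ℝ := (innerSL ℝ (gradient ψ y₀)).prod
    (innerSL ℝ (B (gradient ψ y₀)) - innerSL ℝ (gradient ψ y₀) ∘L B)
  have hL : LinearMap.ker (L : E →ₗ[ℝ] ℝ × ℝ) ≠ ⊥ :=
    LinearMap.ker_ne_bot_of_finrank_lt (by have := c.three; rw [c.dim]; simp; omega)
  obtain ⟨a, ha, ha0⟩ := (Submodule.ne_bot_iff _).1 hL
  have ha' : ⟪gradient ψ y₀, a⟫ = 0 ∧ ⟪B (gradient ψ y₀), a⟫ - ⟪gradient ψ y₀, B a⟫ = 0 := by
    simpa [L] using ha
  have h2 : ∀ u : E, ⟪B u, a⟫ - ⟪u, B a⟫ = 0 := fun u => by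
    rw [key y₀ hy₀ h0₀, ha'.1, ha'.2]; ring
  obtain ⟨y, hy, h0, hb⟩ : ∃ y ∈ C, y ≠ 0 ∧ be ψ a y ≠ 0 := by
    by_contra hn
    push Not at hn
    exact ha0 (c.nb hn)
  have h3 : ∀ u : E, ⟪B u, gradient ψ y⟫ - ⟪u, B (gradient ψ y)⟫ = 0 := fun u => by
    have := key y hy h0 u a
    rw [h2, h2, mul_zero, add_zero, real_inner_comm] at this
    exact (mul_eq_zero.1 this.symm).resolve_left hb
  have h4 := key y hy h0 u w
  have h5 := h3 w
  rw [real_inner_comm (gradient ψ y), real_inner_comm (B (gradient ψ y))] at h5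
  rw [h3 u, show ⟪B (gradient ψ y), w⟫ - ⟪gradient ψ y, B w⟫ = 0 by linarith] at h4
  linarith

/-- By symmetry and `B_tan`, `⟪B ν, u⟫ = ξ_u` for `u ⊥ ν`, so `B ν = ŷ + ⟪B ν, ν⟫ ν`;
`B = B ∘ prj ν + rk (B ν) ν` and `B ∘ prj ν = rk ν ŷ + ‖y‖ H` give `trc B = ⟪B ν, ν⟫` (`lap ψ y = 0`).
So `B (B y) = y + trc B • B y` on `C`, which spans (test with `a`, use symmetry and `span`). -/
theorem Ctx.B_sq (c : Ctx d C ψ) (hB : ∀ y ∈ C, y ≠ 0 → B y = ‖y‖ • gradient ψ y) (x : E) :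
    B (B x) = x + trc B • B x := by
  have h := c.smc
  have hs := c.B_symm hB
  have key : ∀ y ∈ C, y ≠ 0 → B (B y) = y + trc B • B y := by
    intro y hy h0
    have hy0 : ‖y‖ ≠ 0 := norm_ne_zero_iff.2 h0
    have hn : ⟪gradient ψ y, gradient ψ y⟫ = 1 := by rw [real_inner_self_eq_norm_sq, norm_nu h hy h0]; norm_num
    have hp : ∀ x : E, ⟪gradient ψ y, x - ⟪gradient ψ y, x⟫ • gradient ψ y⟫ = 0 := fun x => by
      rw [inner_sub_right, inner_smul_right, hn]; ring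
    have hνy : ⟪gradient ψ y, ‖y‖⁻¹ • y⟫ = 0 := by rw [inner_smul_right, nu_self h hy h0, mul_zero]
    have hsy := hess_symm (ψ := ψ) (y := y) (((sm_psi h).at hy h0).of_le (WithTop.coe_le_coe.2 (le_top : (2 : ℕ∞) ≤ ⊤)))
    set τ := ⟪B (gradient ψ y), gradient ψ y⟫ with hτ
    have h1 : ∀ w, B w = ⟪‖y‖⁻¹ • y, w⟫ • gradient ψ y + ‖y‖ • hess ψ y w +
        ⟪gradient ψ y, w⟫ • B (gradient ψ y) := fun w => by
      have := B_tan h hB hy h0 (hp w)
      rw [map_sub, map_smul, map_sub, map_smul, hess_nu h hy h0, smul_zero, sub_zero, xi, inner_sub_left,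
        real_inner_smul_left, hνy, mul_zero, sub_zero, real_inner_comm (‖y‖⁻¹ • y)] at this
      exact sub_eq_iff_eq_add.1 this
    have h2 : B (gradient ψ y) = ‖y‖⁻¹ • y + τ • gradient ψ y := by
      refine ext_inner_right ℝ fun w => ?_
      rw [hs, h1 w, inner_add_right, inner_add_right, real_inner_smul_right, real_inner_smul_right,
        real_inner_smul_right, hn, ← hsy, hess_nu h hy h0, inner_zero_left, ← hs, ← hτ, inner_add_left,
        real_inner_smul_left _ _ τ]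
      ring
    have h3 : trc B = τ := by
      have hl : lap ψ y = 0 := h.minimal y hy h0
      let b := stdOrthonormalBasis ℝ E
      rw [lap, trc_sum b] at hl
      have e : ∀ i, ⟪b i, B (b i)⟫ = ⟪‖y‖⁻¹ • y, b i⟫ * ⟪b i, gradient ψ y⟫ + ‖y‖ * ⟪b i, hess ψ y (b i)⟫ +
          ⟪gradient ψ y, b i⟫ * ⟪b i, B (gradient ψ y)⟫ := fun i => by
        rw [h1 (b i), inner_add_right, inner_add_right, real_inner_smul_right, real_inner_smul_right,
          real_inner_smul_right]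
      rw [trc_sum b, Finset.sum_congr rfl fun i _ => e i, Finset.sum_add_distrib, Finset.sum_add_distrib,
        ← Finset.mul_sum, hl, b.sum_inner_mul_inner, b.sum_inner_mul_inner, real_inner_comm, hνy, ← hs]
      ring
    rw [h3, hB y hy h0, map_smul, h2, smul_add, smul_smul, mul_inv_cancel₀ hy0, one_smul, smul_comm]
  have := c.span (a := B (B x) - (x + trc B • B x)) fun y hy => by
    rcases eq_or_ne y 0 with rfl | h0
    · simp
    rw [inner_sub_left, inner_add_left, real_inner_smul_left, hs, hs, hs, key y hy h0, inner_add_right,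
      real_inner_smul_right]
    ring
  exact sub_eq_zero.1 this

/-! ### part b -/

/-- `μ = (τ + √(τ² + 4))/2`, `μ - μ⁻¹ = τ`, `K = ker (B - μ)`; for `x ∈ Kᗮ` the vector `B x + μ⁻¹ x` is in `K` and
in `Kᗮ`.  `τ = trc B = p μ - q μ⁻¹` (`p, q` the dimensions, `p + q = d + 1 ≥ 4`), so `(p - 1) μ² = q - 1`. -/
theorem exists_spl (hd : finrank ℝ E = d + 1) (h3 : 3 ≤ d) (hs : ∀ u w, ⟪B u, w⟫ = ⟪u, B w⟫)
    (hq : ∀ x, B (B x) = x + trc B • B x) : ∃ (K : Submodule ℝ E) (k l : ℕ) (μ : ℝ), Spl d K k l μ ∧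
      (∀ x ∈ K, B x = μ • x) ∧ ∀ x ∈ Kᗮ, B x = -μ⁻¹ • x := by
  set τ := trc B with hτ
  set μ := (τ + √(τ ^ 2 + 4)) / 2 with hμ
  have hq2 : √(τ ^ 2 + 4) ^ 2 = τ ^ 2 + 4 := Real.sq_sqrt (by positivity)
  have hpos : 0 < μ := by
    have : |τ| < √(τ ^ 2 + 4) := Real.lt_sqrt_of_sq_lt (by rw [sq_abs]; linarith)
    have := neg_abs_le τ
    rw [hμ]; linarith
  have hμ2 : μ ^ 2 = τ * μ + 1 := by rw [hμ]; linear_combination (1 / 4) * hq2
  have hi : τ + μ⁻¹ = μ := by field_simp; linarith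
  let K : Submodule ℝ E := LinearMap.ker ((B : E →ₗ[ℝ] E) - μ • LinearMap.id)
  have hK : ∀ x, x ∈ K ↔ B x = μ • x := fun x => by simp [K, sub_eq_zero]
  have hK' : ∀ x ∈ Kᗮ, B x = -μ⁻¹ • x := fun x hx => by
    have h1 : B x + μ⁻¹ • x ∈ K := by
      rw [hK, map_add, map_smul, hq, smul_add, smul_smul, mul_inv_cancel₀ hpos.ne', one_smul, add_assoc,
        ← add_smul, hi, add_comm]
    have h2 : B x + μ⁻¹ • x ∈ Kᗮ := by
      refine Kᗮ.add_mem ((K.mem_orthogonal _).2 fun w hw => ?_) (Kᗮ.smul_mem _ hx)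
      rw [← hs, (hK w).1 hw, real_inner_smul_left, (K.mem_orthogonal _).1 hx w hw, mul_zero]
    have h3 : B x + μ⁻¹ • x = 0 := inner_self_eq_zero.1 ((K.mem_orthogonal _).1 h2 _ h1)
    rw [neg_smul]; exact eq_neg_of_add_eq_zero_left h3
  have htr : ∀ L : Submodule ℝ E, LinearMap.trace ℝ E (L.starProjection : E →ₗ[ℝ] E) = finrank ℝ L := fun L =>
    LinearMap.IsProj.trace ⟨fun x => L.starProjection_apply_mem x, fun x hx => L.starProjection_eq_self_iff.2 hx⟩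
  have hB : (B : E →ₗ[ℝ] E) = μ • (K.starProjection : E →ₗ[ℝ] E) - μ⁻¹ • (Kᗮ.starProjection : E →ₗ[ℝ] E) := by
    ext x
    have e := K.starProjection_add_starProjection_orthogonal x
    simp only [ContinuousLinearMap.coe_coe, LinearMap.sub_apply, LinearMap.smul_apply]
    conv_lhs => rw [← e, map_add, (hK _).1 (K.starProjection_apply_mem x), hK' _ (Kᗮ.starProjection_apply_mem x)]
    rw [neg_smul, sub_eq_add_neg]
  have ht : τ = μ * finrank ℝ K - μ⁻¹ * finrank ℝ Kᗮ := by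
    rw [hτ, trc, hB, map_sub, map_smul, map_smul, htr, htr, smul_eq_mul, smul_eq_mul]
  have hsum : finrank ℝ K + finrank ℝ Kᗮ = d + 1 := by rw [K.finrank_add_finrank_orthogonal, hd]
  have he : μ ^ 2 * ((finrank ℝ K : ℝ) - 1) = finrank ℝ Kᗮ - 1 := by
    have : τ * μ = μ ^ 2 * finrank ℝ K - finrank ℝ Kᗮ := by rw [ht]; field_simp
    linarith
  have hμ0 : 0 < μ ^ 2 := by positivity
  obtain ⟨k, hk⟩ : ∃ k, finrank ℝ K = k + 2 := by
    refine ⟨finrank ℝ K - 2, ?_⟩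
    by_contra hn
    have h1 : (finrank ℝ K : ℝ) ≤ 1 := by exact_mod_cast (show finrank ℝ K ≤ 1 by omega)
    have h2 : (3 : ℝ) ≤ finrank ℝ Kᗮ := by exact_mod_cast (show 3 ≤ finrank ℝ Kᗮ by omega)
    nlinarith
  obtain ⟨l, hl⟩ : ∃ l, finrank ℝ Kᗮ = l + 2 := by
    refine ⟨finrank ℝ Kᗮ - 2, ?_⟩
    by_contra hn
    have h1 : (finrank ℝ Kᗮ : ℝ) ≤ 1 := by exact_mod_cast (show finrank ℝ Kᗮ ≤ 1 by omega)
    have h2 : (2 : ℝ) ≤ finrank ℝ K := by exact_mod_cast (show 2 ≤ finrank ℝ K by omega)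
    nlinarith
  refine ⟨K, k + 1, l + 1, μ, ⟨by omega, by omega, by omega, hk, hl, hpos, ?_⟩, fun x hx => (hK x).1 hx, hK'⟩
  rw [hk, hl] at he
  push_cast at he ⊢
  linarith

/-! ### part c -/

/-- the image of `({0}ᶜ : Set K) ×ˢ ball (0 : Kᗮ) 1` under `(a, w) ↦ a + (μ ‖a‖) • w`
(`isConnected_compl_singleton_of_one_lt_rank`) -/
theorem preconn (K : Submodule ℝ E) (hK : 2 ≤ finrank ℝ K) {μ : ℝ} (hμ : 0 < μ) :
    IsPreconnected {y : E | ∃ a ∈ K, ∃ b ∈ Kᗮ, y = a + b ∧ ‖b‖ < μ * ‖a‖} := by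
  have h1 : IsPreconnected (({0}ᶜ : Set K) ×ˢ ball (0 : Kᗮ) 1) :=
    (isConnected_compl_singleton_of_one_lt_rank (Module.one_lt_rank_of_one_lt_finrank hK) 0).isPreconnected.prod
      (convex_ball _ _).isPreconnected
  have h2 := h1.image (fun z : K × Kᗮ => (z.1 : E) + (μ * ‖z.1‖) • (z.2 : E)) (by fun_prop)
  convert h2 using 1
  ext y
  constructor
  · rintro ⟨a, ha, b, hb, rfl, hlt⟩
    have h3 : 0 < μ * ‖a‖ := (norm_nonneg b).trans_lt hlt
    refine ⟨(⟨a, ha⟩, (μ * ‖a‖)⁻¹ • ⟨b, hb⟩), ⟨fun h => ?_, ?_⟩, ?_⟩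
    · have : a = 0 := congrArg Subtype.val (show (⟨a, ha⟩ : K) = 0 from h)
      simp [this] at h3
    · rw [mem_ball_zero_iff, norm_smul, Real.norm_of_nonneg (inv_pos.2 h3).le, inv_mul_lt_iff₀ h3, mul_one]
      exact hlt
    · simp only [Submodule.coe_norm, Submodule.coe_smul, smul_smul, mul_inv_cancel₀ h3.ne', one_smul]
  · rintro ⟨⟨a, w⟩, ⟨ha, hw⟩, rfl⟩
    have h3 : 0 < μ * ‖a‖ := mul_pos hμ (norm_pos_iff.2 ha)
    refine ⟨a, a.2, _, Kᗮ.smul_mem _ w.2, rfl, ?_⟩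
    rw [norm_smul, Real.norm_of_nonneg h3.le]
    exact mul_lt_of_lt_one_right h3 (mem_ball_zero_iff.1 hw)

/-- `φ y = ⟪B y, y⟫ = μ ‖a‖² - μ⁻¹ ‖b‖²` vanishes on `C`, so `ψ ≠ 0` on the preconnected sets `{φ > 0}`, `{φ < 0}`
(`preconn` for `K, μ` and for `Kᗮ, μ⁻¹`).  At `p + t ν p` both `φ` and `ψ` have the sign of `t` for small `t`, hence
`ψ > 0` on `{φ > 0}` and `ψ < 0` on `{φ < 0}`.  A point `a + b` with `‖b‖ = μ ‖a‖ ≠ 0` is the limit of `t a + b`,
`t → 1±`. -/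
theorem Ctx.clifford (c : Ctx d C ψ) (hB : ∀ y ∈ C, y ≠ 0 → B y = ‖y‖ • gradient ψ y) {K : Submodule ℝ E}
    {k l : ℕ} {μ : ℝ} (hS : Spl d K k l μ) (h1 : ∀ x ∈ K, B x = μ • x) (h2 : ∀ x ∈ Kᗮ, B x = -μ⁻¹ • x) :
    ∀ a ∈ K, ∀ b ∈ Kᗮ, ‖b‖ = μ * ‖a‖ → a + b ∈ C := by
  have h := c.smc
  have hμ := hS.pos
  have hφ : ∀ a ∈ K, ∀ b ∈ Kᗮ, μ * ⟪B (a + b), a + b⟫ = (μ * ‖a‖) ^ 2 - ‖b‖ ^ 2 := fun a ha b hb => by
    have hab : ⟪a, b⟫ = 0 := Submodule.inner_right_of_mem_orthogonal ha hb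
    rw [map_add, h1 a ha, h2 b hb]
    simp only [inner_add_left, inner_add_right, real_inner_smul_left, real_inner_self_eq_norm_sq, hab,
      real_inner_comm a b]
    field_simp
    ring
  have hC : ∀ y, ψ y = 0 → ⟪B y, y⟫ = 0 := fun y hy => by
    rcases eq_or_ne y 0 with rfl | h0
    · simp
    have hy' := (mem_iff h).2 hy
    rw [hB y hy' h0, real_inner_smul_left, nu_self h hy' h0, mul_zero]
  have eP : {y : E | ∃ a ∈ K, ∃ b ∈ Kᗮ, y = a + b ∧ ‖b‖ < μ * ‖a‖} = {y | 0 < ⟪B y, y⟫} := by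
    ext y
    constructor
    · rintro ⟨a, ha, b, hb, rfl, hlt⟩
      have := pow_lt_pow_left₀ hlt (norm_nonneg b) two_ne_zero
      exact (mul_pos_iff_of_pos_left hμ).1 (by rw [hφ a ha b hb]; linarith)
    · intro hy
      obtain ⟨a, ha, b, hb, rfl⟩ := K.exists_add_mem_mem_orthogonal y
      have := mul_pos hμ hy
      rw [hφ a ha b hb] at this
      exact ⟨a, ha, b, hb, rfl, lt_of_pow_lt_pow_left₀ 2 (by positivity) (by linarith)⟩
  have eN : {y : E | ∃ b ∈ Kᗮ, ∃ a ∈ Kᗮᗮ, y = b + a ∧ ‖a‖ < μ⁻¹ * ‖b‖} = {y | ⟪B y, y⟫ < 0} := by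
    rw [K.orthogonal_orthogonal]
    ext y
    constructor
    · rintro ⟨b, hb, a, ha, rfl, hlt⟩
      rw [lt_inv_mul_iff₀ hμ] at hlt
      have := pow_lt_pow_left₀ hlt (by positivity) two_ne_zero
      rw [add_comm]
      exact neg_of_mul_neg_right (a := μ) (by rw [hφ a ha b hb]; linarith) hμ.le
    · intro hy
      obtain ⟨a, ha, b, hb, rfl⟩ := K.exists_add_mem_mem_orthogonal y
      have := mul_neg_of_pos_of_neg hμ hy
      rw [hφ a ha b hb] at this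
      exact ⟨b, hb, a, ha, add_comm _ _, (lt_inv_mul_iff₀ hμ).2
        (lt_of_pow_lt_pow_left₀ 2 (by positivity) (by linarith))⟩
  have cP := preconn K (by have := hS.k1; rw [hS.dk]; omega) hμ
  have cN := preconn Kᗮ (by have := hS.l1; rw [hS.dl]; omega) (inv_pos.2 hμ)
  obtain ⟨p, hp, hp0⟩ := c.exists_ne
  have hn : ⟪gradient ψ p, gradient ψ p⟫ = 1 := by rw [real_inner_self_eq_norm_sq, norm_nu h hp hp0]; norm_num
  have hl : HasDerivAt (fun t : ℝ => p + t • gradient ψ p) (gradient ψ p) 0 := by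
    simpa using ((hasDerivAt_id (0 : ℝ)).smul_const (gradient ψ p)).const_add p
  have d1 : HasDerivAt (fun t : ℝ => ψ (p + t • gradient ψ p)) 1 0 := by
    have := ((sm_psi h).diff hp hp0).hasFDerivAt.comp_hasDerivAt_of_eq 0 hl (by simp)
    rwa [← inner_grad, hn] at this
  have d2 : HasDerivAt (fun t : ℝ => ⟪B (p + t • gradient ψ p), p + t • gradient ψ p⟫) (2 * ‖p‖) 0 := by
    have := (B.hasFDerivAt.comp_hasDerivAt 0 hl).inner ℝ hl
    simp only [Function.comp_apply, zero_smul, add_zero] at this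
    rw [c.B_symm hB (gradient ψ p), hB p hp hp0, real_inner_smul_left, real_inner_smul_right, hn] at this
    rw [show 2 * ‖p‖ = ‖p‖ * 1 + ‖p‖ * 1 by ring]
    exact this
  have hp1 : ψ p = 0 := (mem_iff h).1 hp
  have ev := (d1.tendsto_slope_zero.eventually (lt_mem_nhds one_pos)).and
    (d2.tendsto_slope_zero.eventually (lt_mem_nhds (show 0 < 2 * ‖p‖ by positivity)))
  simp only [zero_add, zero_smul, add_zero, hp1, hC p hp1, sub_zero, smul_eq_mul] at ev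
  have sP : ∀ y, 0 < ⟪B y, y⟫ → 0 < ψ y := fun y hy => by
    rw [eP] at cP
    refine cP.lt_of_ne h.cont.continuousOn (fun x hx h0 => (hC x h0).not_gt hx) ?_ hy
    obtain ⟨t, ⟨e1, e2⟩, ht⟩ := ((ev.filter_mono (nhdsGT_le_nhdsNE 0)).and self_mem_nhdsWithin).exists
    have ht' : 0 < t⁻¹ := inv_pos.2 ht
    exact ⟨_, (mul_pos_iff_of_pos_left ht').1 e2, (mul_pos_iff_of_pos_left ht').1 e1⟩
  have sN : ∀ y, ⟪B y, y⟫ < 0 → ψ y < 0 := fun y hy => by
    rw [eN] at cN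
    refine cN.gt_of_ne h.cont.continuousOn (fun x hx h0 => (hC x h0).not_lt hx) ?_ hy
    obtain ⟨t, ⟨e1, e2⟩, ht⟩ := ((ev.filter_mono (nhdsLT_le_nhdsNE 0)).and self_mem_nhdsWithin).exists
    have ht' : t⁻¹ < 0 := inv_lt_zero.2 ht
    exact ⟨_, neg_of_mul_pos_right e2 ht'.le, neg_of_mul_pos_right e1 ht'.le⟩
  intro a ha b hb hab
  rcases eq_or_ne a 0 with rfl | ha0
  · have : b = 0 := by simpa using hab
    simpa [this] using h.zero_mem
  have hA : 0 < μ * ‖a‖ := mul_pos hμ (norm_pos_iff.2 ha0)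
  have hφ' : ∀ t : ℝ, μ * ⟪B (t • a + b), t • a + b⟫ = (μ * ‖a‖) ^ 2 * (t ^ 2 - 1) := fun t => by
    rw [hφ _ (K.smul_mem t ha) b hb, hab, norm_smul, mul_pow, mul_pow, Real.norm_eq_abs, sq_abs]; ring
  have hc : Tendsto (fun t : ℝ => ψ (t • a + b)) (𝓝 1) (𝓝 (ψ (a + b))) := by
    have : Continuous fun t : ℝ => ψ (t • a + b) := h.cont.comp (by fun_prop)
    simpa using this.tendsto 1
  refine (mem_iff h).2 (le_antisymm ?_ ?_)
  · refine le_of_tendsto (hc.mono_left (nhdsWithin_le_nhds (s := Iio 1))) ?_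
    filter_upwards [Ioo_mem_nhdsLT (show (0 : ℝ) < 1 by norm_num)] with t ht
    refine (sN _ (neg_of_mul_neg_right (a := μ) ?_ hμ.le)).le
    rw [hφ']
    exact mul_neg_of_pos_of_neg (by positivity) (by nlinarith [ht.1, ht.2])
  · refine ge_of_tendsto (hc.mono_left (nhdsWithin_le_nhds (s := Ioi 1))) ?_
    filter_upwards [self_mem_nhdsWithin] with t ht
    refine (sP _ ((mul_pos_iff_of_pos_left hμ).1 ?_)).le
    rw [hφ']
    exact mul_pos (by positivity) (by nlinarith [show 1 < t from ht])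

end Crest.Agent.R246.H2
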