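import Crest.Agent.R246.Defs

/-!
# Row 246, block H2 (owner helper70): definitions.  FROZEN.

`ν = gradient ψ`, `H = hess ψ`, `ŷ = ‖y‖⁻¹ • y`, `m = d - 1`.  Plan: Calc (calculus of `ψ`), Int (the integral
`II`), NoBeta (`β_a ≡ 0 ⇒ a = 0`), Quad (`Q' ≥ 0` on `{∫|A|² g = 0}`), Hersch, Sum (`ŷ = Mν`), Class (`C` is a
Clifford cone), Tube (its density), Main.
-/

set_option autoImplicit false
set_option linter.unusedSectionVars false

open MeasureTheory Metric Filter Topology Set Module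
open scoped RealInnerProductSpace ENNReal ContDiff Real

noncomputable section

namespace Crest.Agent.R246.H2

variable {E : Type} [NormedAddCommGroup E] [InnerProductSpace ℝ E] [FiniteDimensional ℝ E]
  [MeasurableSpace E] [BorelSpace E]

/-- Gaussian-weighted integral over the cone -/
def II (d : ℕ) (C : Set E) (φ : E → ℝ) : ℝ := ∫ y, gk d 0 1 y * φ y ∂ar d C

/-- smooth near `C ∖ 0` (so `Adm C f` is `Hom0 f ∧ Sm C f` by definition) -/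
def Sm {F : Type} [NormedAddCommGroup F] [NormedSpace ℝ F] (C : Set E) (f : E → F) : Prop :=
  ∃ U, IsOpen U ∧ C \ {0} ⊆ U ∧ ContDiffOn ℝ ∞ f U

/-- `0`-homogeneous and continuous on `C ∖ 0` -/
structure HC (C : Set E) (φ : E → ℝ) : Prop where
  hom : Hom0 φ
  cont : ContinuousOn φ (C \ {0})

/-- `ξ_a` -/
def xi (a y : E) : ℝ := ⟪a, ‖y‖⁻¹ • y⟫

/-- `β_a` -/
def be (ψ : E → ℝ) (a y : E) : ℝ := ⟪a, gradient ψ y⟫

/-- the integrand of `Q' = Q + m ‖·‖²` -/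
def qd (ψ f g : E → ℝ) (y : E) : ℝ :=
  ‖y‖ ^ 2 * ⟪prj (gradient ψ y) (gradient f y), gradient g y⟫ - A2 ψ y * (f y * g y)

/-- Hersch's test functions -/
def hg (v a y : E) : ℝ := xi a y / (1 - xi v y) - ⟪a, v⟫ / (1 - ‖v‖ ^ 2)

/-- everything that is used about the cone -/
structure Ctx (d : ℕ) (C : Set E) (ψ : E → ℝ) : Prop where
  dim : finrank ℝ E = d + 1
  three : 3 ≤ d
  smc : SMC C ψ
  integ : Integrable (gk d 0 1) (ar d C)
  supp : C \ {0} ⊆ (ar d C).support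
  ibp : ∀ Y : E → E, Sm C Y → Hom0 Y →
    II d C (fun y => ‖y‖ * divT Y (y, gradient ψ y) - ((d : ℝ) - 1) * ⟪Y y, ‖y‖⁻¹ • y⟫) = 0
  rad : ∀ e : E, ‖e‖ = 1 → ∃ y ∈ C, 0 < ⟪e, y⟫
  t2 : ((d : ℝ) - 1) * Th d C ≤ II d C (A2 ψ)

/-- the index hypothesis of `StRig` -/
def Idx (d : ℕ) (C : Set E) (ψ : E → ℝ) : Prop :=
  ∀ f, Adm C f → Qf d C ψ f (fun _ => 1) = 0 →
    (∀ a : E, Qf d C ψ f (fun y => ⟪a, ‖y‖⁻¹ • y⟫) = 0) → 0 ≤ Qf d C ψ f f

/-- the splitting `E = K ⊕ Kᗮ` of a Clifford cone -/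
structure Spl (d : ℕ) (K : Submodule ℝ E) (k l : ℕ) (μ : ℝ) : Prop where
  k1 : 1 ≤ k
  l1 : 1 ≤ l
  sum : k + l + 1 = d
  dk : finrank ℝ K = k + 1
  dl : finrank ℝ Kᗮ = l + 1
  pos : 0 < μ
  sq : μ ^ 2 * k = l

end Crest.Agent.R246.H2
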