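import Crest.Agent.R246.H2.Int
import Crest.Agent.Lib.Brouwer.Basic

/-! Row 246, block H2: Hersch's lemma.  Statements frozen (helper70). -/

set_option autoImplicit false
set_option linter.unusedSectionVars false

open MeasureTheory Metric Filter Topology Set Module
open scoped RealInnerProductSpace ENNReal ContDiff Real

noncomputable section

namespace Crest.Agent.R246.H2

variable {E : Type} [NormedAddCommGroup E] [InnerProductSpace ℝ E] [FiniteDimensional ℝ E]
  [MeasurableSpace E] [BorelSpace E]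

variable {d : ℕ} {C : Set E} {ψ : E → ℝ}

/-- `T v = (∫ w)⁻¹ • ∫ (w y * (max (1 - ‖v‖²) 0 / (1 - ⟪v, x y⟫))) • x y` is continuous (`continuousAt_of_dominated`,
the quotient is in `[0, 2]`; at `v₀` use `x y ≠ v₀` a.e.) and maps `closedBall 0 2` to itself; a fixed point
(`exists_fixedPoint_of_isCompact_convex`) has norm `< 1`, since `T v = 0` for `1 ≤ ‖v‖`. -/
theorem hersch_abs {μ : Measure E} {w : E → ℝ} {x : E → E} (hw : Integrable w μ) (h0 : ∀ᵐ y ∂μ, 0 ≤ w y)
    (hp : 0 < ∫ y, w y ∂μ) (hx : AEStronglyMeasurable x μ) (h1 : ∀ᵐ y ∂μ, ‖x y‖ = 1)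
    (hna : ∀ e : E, ∀ᵐ y ∂μ, x y ≠ e) : ∃ v : E, ‖v‖ < 1 ∧ ∀ a : E,
      ∫ y, w y * (⟪a, x y⟫ / (1 - ⟪v, x y⟫)) ∂μ = ⟪a, v⟫ / (1 - ‖v‖ ^ 2) * ∫ y, w y ∂μ := by
  set q : E → E → ℝ := fun v z => max (1 - ‖v‖ ^ 2) 0 / (1 - ⟪v, z⟫) with hq
  have q0 : ∀ v z, 1 ≤ ‖v‖ → q v z = 0 := fun v z hv => by
    rw [hq]; simp only; rw [max_eq_right (by nlinarith), zero_div]
  have qb : ∀ v z, ‖z‖ = 1 → |q v z| ≤ 2 := fun v z hz => by
    rcases le_or_gt 1 ‖v‖ with hv | hv
    · rw [q0 v z hv]; norm_num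
    have h2 : ⟪v, z⟫ ≤ ‖v‖ := by simpa [hz] using real_inner_le_norm v z
    have h3 := norm_nonneg v
    rw [hq]; simp only
    rw [max_eq_left (by nlinarith), abs_of_nonneg (div_nonneg (by nlinarith) (by linarith)),
      div_le_iff₀ (by linarith)]
    nlinarith
  have qc : ∀ v z, ‖z‖ = 1 → z ≠ v → ContinuousAt (fun u => q u z) v := fun v z hz hne => by
    by_cases h2 : 1 - ⟪v, z⟫ = 0
    · have h3 : ⟪v, z⟫ ≤ ‖v‖ := by simpa [hz] using real_inner_le_norm v z
      have h4 : 1 < ‖v‖ := by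
        refine lt_of_le_of_ne (by linarith) fun h5 => hne ?_
        exact ((inner_eq_one_iff_of_norm_eq_one h5.symm hz).1 (show ⟪v, z⟫ = 1 by linarith)).symm
      refine (continuousAt_const (y := (0 : ℝ))).congr ?_
      filter_upwards [continuous_norm.continuousAt.eventually (lt_mem_nhds h4)] with u hu
      exact (q0 u z hu.le).symm
    · exact ContinuousAt.div (by fun_prop) (by fun_prop) h2
  have hm : ∀ v, AEStronglyMeasurable (fun y => (w y * q v (x y)) • x y) μ := fun v => by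
    have : Measurable (q v) := by rw [hq]; fun_prop
    exact (hw.1.mul (this.comp_aemeasurable hx.aemeasurable).aestronglyMeasurable).smul hx
  have hb : ∀ v, ∀ᵐ y ∂μ, ‖(w y * q v (x y)) • x y‖ ≤ 2 * w y := fun v => by
    filter_upwards [h0, h1] with y hy0 hy1
    rw [norm_smul, hy1, mul_one, Real.norm_eq_abs, abs_mul, abs_of_nonneg hy0, mul_comm]
    exact mul_le_mul_of_nonneg_right (qb v _ hy1) hy0
  have hc : Continuous fun v => (∫ y, w y ∂μ)⁻¹ • ∫ y, (w y * q v (x y)) • x y ∂μ := by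
    refine Continuous.const_smul (continuous_iff_continuousAt.2 fun v => ?_) _
    refine continuousAt_of_dominated (Eventually.of_forall hm) (Eventually.of_forall hb) (hw.const_mul 2) ?_
    filter_upwards [h1, hna v] with y hy1 hy2
    exact (continuousAt_const.mul (qc v _ hy1 hy2)).smul continuousAt_const
  obtain ⟨v, -, hv⟩ := Lib.Brouwer.exists_fixedPoint_of_isCompact_convex (isCompact_closedBall (0 : E) 2)
    (convex_closedBall _ _) (nonempty_closedBall.2 (by norm_num)) _ hc.continuousOn fun v _ => by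
      rw [mem_closedBall_zero_iff, norm_smul, Real.norm_of_nonneg (inv_pos.2 hp).le, inv_mul_le_iff₀ hp,
        mul_comm, ← integral_const_mul]
      exact norm_integral_le_of_norm_le (hw.const_mul 2) (hb v)
  have hv1 : ‖v‖ < 1 := by
    by_contra hn
    simp only [q0 v _ (not_lt.1 hn), mul_zero, zero_smul, integral_zero, smul_zero] at hv
    simp [← hv] at hn
  refine ⟨v, hv1, fun a => ?_⟩
  have hp1 : 0 < 1 - ‖v‖ ^ 2 := by nlinarith [norm_nonneg v]
  have h2 := congrArg (fun u => ⟪a, u⟫) hv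
  simp only [real_inner_smul_right] at h2
  rw [← integral_inner ((hw.const_mul 2).mono' (hm v) (hb v))] at h2
  have e : ∀ y, ⟪a, (w y * q v (x y)) • x y⟫ = (1 - ‖v‖ ^ 2) * (w y * (⟪a, x y⟫ / (1 - ⟪v, x y⟫))) := fun y => by
    rw [real_inner_smul_right, hq]; simp only; rw [max_eq_left hp1.le]; ring
  simp only [e] at h2
  rw [integral_const_mul] at h2
  rw [← h2]
  field_simp

theorem one_sub_xi_pos {v : E} (hv : ‖v‖ < 1) (y : E) : 0 < 1 - xi v y := by
  linarith [(abs_le.1 (abs_xi_le v y)).2]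

theorem adm_hg {v : E} (hv : ‖v‖ < 1) (a : E) : Adm C (hg v a) := by
  refine ⟨fun t ht y => by simp only [hg, hom_xi _ t ht y], Sm.of_ne fun y hy => ?_⟩
  have h : ∀ b : E, ContDiffAt ℝ ∞ (xi b) y := fun b => (sm_xi (C := univ) b).at (mem_univ _) hy
  exact ((h a).div (contDiffAt_const.sub (h v)) (one_sub_xi_pos hv y).ne').sub contDiffAt_const

theorem Ctx.hersch (c : Ctx d C ψ) :
    ∃ v : E, ‖v‖ < 1 ∧ ∀ a : E, II d C (fun y => A2 ψ y * hg v a y) = 0 := by
  have h := c.smc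
  have hA := hc_of_adm (adm_A2 h)
  obtain ⟨v, hv, hs⟩ := hersch_abs (μ := ar d C) (w := fun y => gk d 0 1 y * A2 ψ y) (x := fun y => ‖y‖⁻¹ • y)
    (c.integrable hA) (c.ae_mem.mono fun y hy => mul_nonneg (gk_pos d y).le (A2_nonneg h hy.1 hy.2)) c.A2_pos
    (c.aesm ((continuousOn_id.norm.inv₀ fun y hy => norm_ne_zero_iff.2 hy.2).smul continuousOn_id))
    (c.ae_mem.mono fun y hy => norm_smul_inv_norm (𝕜 := ℝ) hy.2) fun e => by
      filter_upwards [c.ae_mem, ae_not_line (show 2 ≤ d by have := c.three; omega) C e] with y hy hl he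
      refine hl ‖y‖ ?_
      rw [← he, smul_smul, mul_inv_cancel₀ (norm_ne_zero_iff.2 hy.2), one_smul]
  refine ⟨v, hv, fun a => ?_⟩
  have e : (fun y => A2 ψ y * hg v a y) = fun y => A2 ψ y * (xi a y / (1 - xi v y)) -
      ⟪a, v⟫ / (1 - ‖v‖ ^ 2) * A2 ψ y := by
    ext y; rw [hg]; ring
  rw [e, c.II_sub (hA.mul ((hc_xi a).div ((HC.const 1).sub (hc_xi v)) fun y _ _ => (one_sub_xi_pos hv y).ne'))
    ((HC.const _).mul hA), II_mul, sub_eq_zero, II, II, ← hs a]
  simp only [mul_assoc, xi]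

end Crest.Agent.R246.H2
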