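import Crest.Agent.R246.H2.Calc

/-! Row 246, block H2: the integral `II`.  Statements frozen (helper70). -/

set_option autoImplicit false
set_option linter.unusedSectionVars false

open MeasureTheory Metric Filter Topology Set Module
open scoped RealInnerProductSpace ENNReal ContDiff Real

noncomputable section

namespace Crest.Agent.R246.H2

variable {E : Type} [NormedAddCommGroup E] [InnerProductSpace ℝ E] [FiniteDimensional ℝ E]
  [MeasurableSpace E] [BorelSpace E]

variable {d : ℕ} {C : Set E} {ψ φ φ' : E → ℝ}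

theorem HC.const (c : ℝ) : HC C fun _ => c := by
  exact ⟨fun _ _ _ => rfl, continuousOn_const⟩

theorem HC.add (h : HC C φ) (h' : HC C φ') : HC C fun y => φ y + φ' y := by
  exact ⟨fun t ht y => by simp only [h.hom t ht y, h'.hom t ht y], h.cont.add h'.cont⟩

theorem HC.sub (h : HC C φ) (h' : HC C φ') : HC C fun y => φ y - φ' y := by
  exact ⟨fun t ht y => by simp only [h.hom t ht y, h'.hom t ht y], h.cont.sub h'.cont⟩

theorem HC.mul (h : HC C φ) (h' : HC C φ') : HC C fun y => φ y * φ' y := by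
  exact ⟨fun t ht y => by simp only [h.hom t ht y, h'.hom t ht y], h.cont.mul h'.cont⟩

theorem HC.pow (h : HC C φ) (n : ℕ) : HC C fun y => φ y ^ n := by
  exact ⟨fun t ht y => by simp only [h.hom t ht y], h.cont.pow n⟩

theorem HC.div (h : HC C φ) (h' : HC C φ') (h0 : ∀ y ∈ C, y ≠ 0 → φ' y ≠ 0) : HC C fun y => φ y / φ' y := by
  exact ⟨fun t ht y => by simp only [h.hom t ht y, h'.hom t ht y],
    h.cont.div h'.cont fun y hy => h0 y hy.1 hy.2⟩

theorem hc_of_adm (h : Adm C φ) : HC C φ := ⟨h.1, Sm.cont h.2⟩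

theorem hc_xi (a : E) : HC C (xi a) := ⟨hom_xi a, (sm_xi a).cont⟩

/-- `C ∩ sphere 0 1` is compact -/
theorem HC.bdd (hC : CCone C) (h : HC C φ) : ∃ M, ∀ y ∈ C, y ≠ 0 → |φ y| ≤ M := by
  obtain ⟨M, hM⟩ := ((isCompact_sphere (0 : E) 1).inter_left hC.closed).exists_bound_of_continuousOn
    (h.cont.mono fun y hy => ⟨hy.1, fun h0 => by simpa [show y = 0 from h0] using hy.2⟩)
  refine ⟨M, fun y hy h0 => ?_⟩
  have hp : 0 < ‖y‖⁻¹ := inv_pos.2 (norm_pos_iff.2 h0)
  rw [← h.hom _ hp y]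
  exact hM _ ⟨hC.smul_mem _ hp y hy, mem_sphere_zero_iff_norm.2 (norm_smul_inv_norm (𝕜 := ℝ) h0)⟩

/-- lines are null: `dimH` of the range of a Lipschitz map from `ℝ` is `≤ 1 < d`
(`hausdorffMeasure_of_dimH_lt`, `LipschitzWith.dimH_range_le`, `euclideanHausdorffMeasure_def`) -/
theorem ae_not_line (hd : 2 ≤ d) (C : Set E) (e : E) : ∀ᵐ y ∂ar d C, ∀ t : ℝ, y ≠ t • e := by
  refine ae_restrict_of_ae ?_
  have h1 : dimH (range fun t : ℝ => t • e) < ((d : NNReal) : ℝ≥0∞) := by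
    refine (ContDiff.dimH_range_le (by fun_prop)).trans_lt ?_
    rw [finrank_self]
    exact_mod_cast hd
  have h2 : (μHE[d] : Measure E) (range fun t : ℝ => t • e) = 0 := by
    rw [Measure.euclideanHausdorffMeasure_def, Measure.smul_apply]
    have := hausdorffMeasure_of_dimH_lt h1
    rw [NNReal.coe_natCast] at this
    rw [this, smul_zero]
  filter_upwards [compl_mem_ae_iff.2 h2] with y hy t ht using hy ⟨t, ht.symm⟩

theorem Ctx.ae_mem (c : Ctx d C ψ) : ∀ᵐ y ∂ar d C, y ∈ C ∧ y ≠ 0 := by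
  filter_upwards [ae_restrict_mem c.smc.closed.measurableSet,
    ae_not_line (show 2 ≤ d by have := c.three; omega) C 0] with y hy h using ⟨hy, by simpa using h 0⟩

/-- `ar d C = (ar d C).restrict (C \ {0})`, `ContinuousOn.aestronglyMeasurable` -/
theorem Ctx.aesm {F : Type} [NormedAddCommGroup F] (c : Ctx d C ψ) {f : E → F} (h : ContinuousOn f (C \ {0})) :
    AEStronglyMeasurable f (ar d C) := by
  rw [← Measure.restrict_eq_self_of_ae_mem (s := C \ {0}) c.ae_mem]
  exact h.aestronglyMeasurable (c.smc.closed.measurableSet.diff (measurableSet_singleton 0))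

theorem Ctx.integrable (c : Ctx d C ψ) (h : HC C φ) : Integrable (fun y => gk d 0 1 y * φ y) (ar d C) := by
  obtain ⟨M, hM⟩ := h.bdd c.smc.toCCone
  exact c.integ.mul_bdd (c.aesm h.cont) (c.ae_mem.mono fun y hy => hM y hy.1 hy.2)

theorem gk_pos (d : ℕ) (y : E) : 0 < gk d 0 1 y := by
  have := Real.pi_pos
  unfold gk
  positivity

theorem Ctx.II_congr (c : Ctx d C ψ) (h : ∀ y ∈ C, y ≠ 0 → φ y = φ' y) : II d C φ = II d C φ' := by
  exact integral_congr_ae (c.ae_mem.mono fun y hy => by simp only [h y hy.1 hy.2])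

theorem Ctx.II_add (c : Ctx d C ψ) (h : HC C φ) (h' : HC C φ') :
    II d C (fun y => φ y + φ' y) = II d C φ + II d C φ' := by
  simp only [II, mul_add]
  exact integral_add (c.integrable h) (c.integrable h')

theorem Ctx.II_sub (c : Ctx d C ψ) (h : HC C φ) (h' : HC C φ') :
    II d C (fun y => φ y - φ' y) = II d C φ - II d C φ' := by
  simp only [II, mul_sub]
  exact integral_sub (c.integrable h) (c.integrable h')

theorem II_mul (a : ℝ) (φ : E → ℝ) : II d C (fun y => a * φ y) = a * II d C φ := by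
  simp only [II, mul_left_comm _ a]
  exact integral_const_mul _ _

theorem II_const (a : ℝ) : II d C (fun _ => a) = a * Th d C := by
  simp only [II, mul_comm _ a]
  exact integral_const_mul _ _

theorem Ctx.II_sum (c : Ctx d C ψ) {ι : Type} (s : Finset ι) {f : ι → E → ℝ} (h : ∀ i, HC C (f i)) :
    II d C (fun y => ∑ i ∈ s, f i y) = ∑ i ∈ s, II d C (f i) := by
  simp only [II, Finset.mul_sum]
  exact integral_finsetSum _ fun i _ => c.integrable (h i)

theorem Ctx.II_nonneg (c : Ctx d C ψ) (h : ∀ y ∈ C, y ≠ 0 → 0 ≤ φ y) : 0 ≤ II d C φ := by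
  exact integral_nonneg_of_ae (c.ae_mem.mono fun y hy => mul_nonneg (gk_pos d y).le (h y hy.1 hy.2))

theorem Ctx.II_mono (c : Ctx d C ψ) (h : HC C φ) (h' : HC C φ') (hle : ∀ y ∈ C, y ≠ 0 → φ y ≤ φ' y) :
    II d C φ ≤ II d C φ' := by
  exact integral_mono_ae (c.integrable h) (c.integrable h')
    (c.ae_mem.mono fun y hy => mul_le_mul_of_nonneg_left (hle y hy.1 hy.2) (gk_pos d y).le)

/-- `φ = 0` a.e.; if `φ y > 0` then `φ > 0` on a neighbourhood of `y` within `C ∖ 0`, which has positive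
measure as `y` is in the support (`Measure.mem_support_iff_forall`) -/
theorem Ctx.eq_zero (c : Ctx d C ψ) (h : HC C φ) (h0 : ∀ y ∈ C, y ≠ 0 → 0 ≤ φ y) (hI : II d C φ ≤ 0) :
    ∀ y ∈ C, y ≠ 0 → φ y = 0 := by
  intro y hy hy0
  have h1 := (integral_eq_zero_iff_of_nonneg_ae (c.ae_mem.mono fun y hy =>
    mul_nonneg (gk_pos d y).le (h0 y hy.1 hy.2)) (c.integrable h)).1 (le_antisymm hI (c.II_nonneg h0))
  by_contra hn
  have h2 := eventually_nhdsWithin_iff.1 ((h.cont y ⟨hy, hy0⟩).eventually_ne hn)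
  refine ((Measure.mem_support_iff_forall y).1 (c.supp ⟨hy, hy0⟩) _ h2).ne' (measure_eq_zero_iff_ae_notMem.2 ?_)
  filter_upwards [h1, c.ae_mem] with z hz hm hs
  exact hs hm ((mul_eq_zero.1 hz).resolve_left (gk_pos d z).ne')

theorem Ctx.exists_ne (c : Ctx d C ψ) : ∃ y ∈ C, y ≠ 0 := by
  have : Nontrivial E := Module.nontrivial_of_finrank_pos (R := ℝ) (by rw [c.dim]; omega)
  obtain ⟨e, he⟩ := exists_norm_eq E zero_le_one
  obtain ⟨y, hy, h⟩ := c.rad e he
  exact ⟨y, hy, by rintro rfl; simp at h⟩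

theorem Ctx.Th_pos (c : Ctx d C ψ) : 0 < Th d C := by
  obtain ⟨y, hy, h0⟩ := c.exists_ne
  by_contra hn
  exact one_ne_zero (c.eq_zero (HC.const 1) (fun _ _ _ => zero_le_one) (by rw [II_const]; linarith) y hy h0)

theorem Ctx.A2_pos (c : Ctx d C ψ) : 0 < II d C (A2 ψ) := by
  have h3 : (3 : ℝ) ≤ d := by exact_mod_cast c.three
  exact (mul_pos (by linarith) c.Th_pos).trans_le c.t2

/-- the cone spans `E` -/
theorem Ctx.span (c : Ctx d C ψ) {a : E} (h : ∀ y ∈ C, ⟪a, y⟫ = 0) : a = 0 := by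
  by_contra h0
  obtain ⟨y, hy, hp⟩ := c.rad (‖a‖⁻¹ • a) (norm_smul_inv_norm (𝕜 := ℝ) h0)
  rw [real_inner_smul_left, h y hy, mul_zero] at hp
  exact lt_irrefl _ hp

end Crest.Agent.R246.H2
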