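import Crest.Agent.R246.H2.Defs

/-! Row 246, block H2: the density of a Clifford cone.  Statements frozen (helper70). -/

set_option autoImplicit false
set_option linter.unusedSectionVars false

open MeasureTheory Metric Filter Topology Set Module
open scoped RealInnerProductSpace ENNReal ContDiff Real

noncomputable section

namespace Crest.Agent.R246.H2

variable {E : Type} [NormedAddCommGroup E] [InnerProductSpace ℝ E] [FiniteDimensional ℝ E]
  [MeasurableSpace E] [BorelSpace E]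

open Crest.GeometryTopology.SphereImmersion

variable {d k l : ℕ} {C : Set E} {ψ : E → ℝ} {K : Submodule ℝ E} {μ : ℝ}

/-! ### part a -/

theorem usa_pos (j : ℕ) : 0 < unitSphereArea j := by
  unfold unitSphereArea
  have := Real.Gamma_pos_of_pos (show 0 < ((j : ℝ) + 1) / 2 by positivity)
  have := Real.pi_pos
  positivity

/-- `Measure.measurePreserving_homeomorphUnitSphereProd` (copy the proof of `integral_fun_norm_addHaar`),
`toSphere_apply_univ`, `InnerProductSpace.volume_ball`, `Real.Gamma_add_one` -/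
theorem lint_norm {j : ℕ} (hj : finrank ℝ E = j + 1) {f : ℝ → ℝ≥0∞} (hf : Measurable f) :
    ∫⁻ x : E, f ‖x‖ = ENNReal.ofReal (unitSphereArea j) * ∫⁻ r in Ioi (0 : ℝ), ENNReal.ofReal (r ^ j) * f r := by
  have hnt : Nontrivial E := Module.nontrivial_of_finrank_pos (R := ℝ) (by omega)
  have hs : (volume : Measure E).toSphere univ = ENNReal.ofReal (unitSphereArea j) := by
    rw [Measure.toSphere_apply_univ, InnerProductSpace.volume_ball, hj, ENNReal.ofReal_one, one_pow, one_mul,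
      ← ENNReal.ofReal_natCast, ← ENNReal.ofReal_mul (Nat.cast_nonneg _)]
    congr 1
    unfold unitSphereArea
    have h1 : 0 < ((j : ℝ) + 1) / 2 := by positivity
    have h2 := Real.Gamma_pos_of_pos h1
    push_cast
    rw [Real.Gamma_add_one h1.ne', Real.sqrt_eq_rpow, ← Real.rpow_natCast, ← Real.rpow_mul Real.pi_pos.le]
    have : 1 / 2 * (((j + 1 : ℕ) : ℝ)) = ((j : ℝ) + 1) / 2 := by push_cast; ring
    rw [this]
    field_simp
  calc ∫⁻ x : E, f ‖x‖ = ∫⁻ x : ({(0)}ᶜ : Set E), f (‖x.1‖) ∂((volume : Measure E).comap (↑)) := by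
        rw [lintegral_subtype_comap (measurableSet_singleton _).compl fun x : E => f ‖x‖,
          restrict_compl_singleton]
    _ = ∫⁻ x, f x.2 ∂(volume : Measure E).toSphere.prod (.volumeIoiPow (finrank ℝ E - 1)) := by
        simpa using (volume : Measure E).measurePreserving_homeomorphUnitSphereProd.lintegral_comp_emb
          (Homeomorph.measurableEmbedding _) (f ∘ Subtype.val ∘ Prod.snd)
    _ = (volume : Measure E).toSphere univ * ∫⁻ x : Ioi (0 : ℝ), f x ∂.volumeIoiPow (finrank ℝ E - 1) := by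
        rw [lintegral_prod _ (by fun_prop)]
        simp [mul_comm]
    _ = _ := by
        rw [hs, hj, Nat.add_sub_cancel, Measure.volumeIoiPow,
          lintegral_withDensity_eq_lintegral_mul _ (by fun_prop) (by fun_prop),
          ← lintegral_subtype_comap measurableSet_Ioi]
        rfl

/-- `Submodule.measurePreserving_measurableEquivProd`, `lintegral_prod`, `lint_norm` twice,
`lintegral_comp_polarCoord_symm` for the function extended by `0` outside the open quadrant -/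
theorem lint_bipolar (hk : finrank ℝ K = k + 1) (hl : finrank ℝ Kᗮ = l + 1) {f : ℝ × ℝ → ℝ≥0∞}
    (hf : Measurable f) : ∫⁻ y : E, f (‖K.starProjection y‖, ‖Kᗮ.starProjection y‖) =
      ENNReal.ofReal (unitSphereArea k * unitSphereArea l) * ∫⁻ θ in Ioo 0 (π / 2), ∫⁻ ρ in Ioi (0 : ℝ),
        ENNReal.ofReal (ρ ^ (k + l + 1) * (Real.cos θ ^ k * Real.sin θ ^ l)) *
          f (ρ * Real.cos θ, ρ * Real.sin θ) := by
  have h1 : ∫⁻ y : E, f (‖K.starProjection y‖, ‖Kᗮ.starProjection y‖) =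
      ∫⁻ z : K × Kᗮ, f (‖z.1‖, ‖z.2‖) := by
    have hp := K.measurePreserving_measurableEquivProd (0 : E)
    rw [InnerProductSpace.euclideanHausdorffMeasure_eq_volume] at hp
    rw [← hp.lintegral_comp_emb (MeasurableEquiv.measurableEmbedding _)]
    congr with y
    simp
  have h2 : ∫⁻ z : K × Kᗮ, f (‖z.1‖, ‖z.2‖) = ENNReal.ofReal (unitSphereArea k * unitSphereArea l) *
      ∫⁻ r in Ioi (0 : ℝ), ∫⁻ s in Ioi (0 : ℝ), ENNReal.ofReal (r ^ k * s ^ l) * f (r, s) := by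
    rw [Measure.volume_eq_prod, lintegral_prod _ (by fun_prop)]
    have h3 : ∀ a : K, ∫⁻ b : Kᗮ, f (‖a‖, ‖b‖) = ENNReal.ofReal (unitSphereArea l) *
        ∫⁻ s in Ioi (0 : ℝ), ENNReal.ofReal (s ^ l) * f (‖a‖, s) :=
      fun a => lint_norm hl (f := fun s => f (‖a‖, s)) (by fun_prop)
    simp only [h3]
    have hm : Measurable fun r : ℝ => ∫⁻ s in Ioi (0 : ℝ), ENNReal.ofReal (s ^ l) * f (r, s) :=
      Measurable.lintegral_prod_right' (f := fun z : ℝ × ℝ => ENNReal.ofReal (z.2 ^ l) * f (z.1, z.2))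
        (by fun_prop)
    have hm' : Measurable fun a : K => ∫⁻ s in Ioi (0 : ℝ), ENNReal.ofReal (s ^ l) * f (‖a‖, s) :=
      hm.comp measurable_norm
    rw [lintegral_const_mul _ hm', lint_norm hk hm,
      ENNReal.ofReal_mul (usa_pos k).le, ← mul_assoc, mul_comm (ENNReal.ofReal (unitSphereArea l))]
    congr 1
    refine setLIntegral_congr_fun measurableSet_Ioi fun r hr => ?_
    have hr' : 0 < r := hr
    rw [← lintegral_const_mul _ (by fun_prop)]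
    congr with s
    rw [ENNReal.ofReal_mul (by positivity), mul_assoc]
  rw [h1, h2]
  congr 1
  set g : ℝ × ℝ → ℝ≥0∞ := (Ioi (0 : ℝ) ×ˢ Ioi (0 : ℝ)).indicator
    fun z => ENNReal.ofReal (z.1 ^ k * z.2 ^ l) * f z with hg
  have hms : MeasurableSet (Ioi (0 : ℝ) ×ˢ Ioi (0 : ℝ)) := measurableSet_Ioi.prod measurableSet_Ioi
  have h4 : ∫⁻ r in Ioi (0 : ℝ), ∫⁻ s in Ioi (0 : ℝ), ENNReal.ofReal (r ^ k * s ^ l) * f (r, s) = ∫⁻ z, g z := by
    rw [hg, lintegral_indicator hms, Measure.volume_eq_prod, ← Measure.prod_restrict,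
      lintegral_prod _ (by fun_prop)]
  rw [h4, ← lintegral_comp_polarCoord_symm]
  have h5 : ∫⁻ θ in Ioo 0 (π / 2), ∫⁻ ρ in Ioi (0 : ℝ),
        ENNReal.ofReal (ρ ^ (k + l + 1) * (Real.cos θ ^ k * Real.sin θ ^ l)) *
          f (ρ * Real.cos θ, ρ * Real.sin θ) = ∫⁻ p in Ioi (0 : ℝ) ×ˢ Ioo (0 : ℝ) (π / 2),
        ENNReal.ofReal (p.1 ^ (k + l + 1) * (Real.cos p.2 ^ k * Real.sin p.2 ^ l)) *
          f (p.1 * Real.cos p.2, p.1 * Real.sin p.2) := by
    rw [Measure.volume_eq_prod, ← Measure.prod_restrict, lintegral_prod_symm _ (by fun_prop)]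
  have hms' : MeasurableSet (Ioi (0 : ℝ) ×ˢ Ioo (0 : ℝ) (π / 2)) := measurableSet_Ioi.prod measurableSet_Ioo
  have hsub : Ioi (0 : ℝ) ×ˢ Ioo (0 : ℝ) (π / 2) ⊆ polarCoord.target := by
    rintro ⟨r, θ⟩ ⟨hr, h0, h1⟩
    exact ⟨hr, by linarith [Real.pi_pos, show 0 < θ from h0], by linarith [Real.pi_pos, show θ < π / 2 from h1]⟩
  rw [h5, ← inter_eq_self_of_subset_left hsub, ← Measure.restrict_restrict hms', ← lintegral_indicator hms']
  refine setLIntegral_congr_fun polarCoord.open_target.measurableSet ?_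
  rintro ⟨r, θ⟩ ⟨hr, h0, h1⟩
  have hr' : 0 < r := hr
  simp only [polarCoord_symm_apply, smul_eq_mul, hg]
  by_cases hθ : θ ∈ Ioo 0 (π / 2)
  · have hc : 0 < Real.cos θ := Real.cos_pos_of_mem_Ioo ⟨by linarith [hθ.1, Real.pi_pos], hθ.2⟩
    have hs : 0 < Real.sin θ := Real.sin_pos_of_pos_of_lt_pi hθ.1 h1
    rw [indicator_of_mem (show (r * Real.cos θ, r * Real.sin θ) ∈ Ioi (0 : ℝ) ×ˢ Ioi (0 : ℝ) from
      ⟨mul_pos hr' hc, mul_pos hr' hs⟩), indicator_of_mem (show (r, θ) ∈ Ioi (0 : ℝ) ×ˢ Ioo (0 : ℝ) (π / 2) from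
      ⟨hr, hθ⟩), ← mul_assoc, ← ENNReal.ofReal_mul hr'.le]
    congr 2
    simp only
    ring
  · rw [indicator_of_notMem, indicator_of_notMem (fun h => hθ h.2), mul_zero]
    rintro ⟨hc, hs⟩
    have hc' : 0 < Real.cos θ := (mul_pos_iff_of_pos_left hr').1 hc
    have hs' : 0 < Real.sin θ := (mul_pos_iff_of_pos_left hr').1 hs
    refine hθ ⟨?_, ?_⟩
    · by_contra hn
      have := Real.sin_nonpos_of_nonpos_of_neg_pi_le (not_lt.1 hn) (le_of_lt h0)
      linarith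
    · by_contra hn
      have := Real.cos_nonpos_of_pi_div_two_le_of_le (not_lt.1 hn) (by linarith [Real.pi_pos, show θ < π from h1])
      linarith

/-- `integral_rpow_mul_exp_neg_mul_rpow` -/
theorem gauss_radial (j : ℕ) : ∫⁻ ρ in Ioi (0 : ℝ),
    ENNReal.ofReal (ρ ^ j * ((√(2 * π) * 1)⁻¹ ^ (j + 1) * Real.exp (-ρ ^ 2 / (2 * 1 ^ 2)))) =
      ENNReal.ofReal (unitSphereArea j)⁻¹ := by
  have hj : (-1 : ℝ) < j := by have := Nat.cast_nonneg (α := ℝ) j; linarith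
  have e : ∀ ρ : ℝ, ρ ^ j * ((√(2 * π) * 1)⁻¹ ^ (j + 1) * Real.exp (-ρ ^ 2 / (2 * 1 ^ 2))) =
      (√(2 * π))⁻¹ ^ (j + 1) * (ρ ^ (j : ℝ) * Real.exp (-(1 / 2) * ρ ^ (2 : ℝ))) := by
    intro ρ
    rw [Real.rpow_natCast, Real.rpow_two, show -ρ ^ 2 / (2 * 1 ^ 2) = -(1 / 2) * ρ ^ 2 by ring]
    ring
  simp only [e]
  rw [← ofReal_integral_eq_lintegral_ofReal
    ((integrableOn_rpow_mul_exp_neg_mul_rpow hj two_pos (by norm_num)).const_mul _), integral_const_mul,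
    integral_rpow_mul_exp_neg_mul_rpow two_pos hj (by norm_num)]
  · congr 1
    unfold unitSphereArea
    have h1 : 0 < ((j : ℝ) + 1) / 2 := by positivity
    have h2 := Real.Gamma_pos_of_pos h1
    have h3 : (√(2 * π))⁻¹ ^ (j + 1) = (2 ^ (((j : ℝ) + 1) / 2) * π ^ (((j : ℝ) + 1) / 2))⁻¹ := by
      rw [inv_pow, Real.sqrt_eq_rpow, ← Real.rpow_natCast, ← Real.rpow_mul (by positivity),
        ← Real.mul_rpow (by norm_num) Real.pi_pos.le]
      congr 2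
      push_cast; ring
    have h4 : (1 / 2 : ℝ) ^ (-((j : ℝ) + 1) / 2) = 2 ^ (((j : ℝ) + 1) / 2) := by
      rw [one_div, Real.inv_rpow (by norm_num), neg_div, Real.rpow_neg (by norm_num), inv_inv]
    rw [h3, h4]
    have h5 : (0 : ℝ) < 2 ^ (((j : ℝ) + 1) / 2) := by positivity
    have h6 : (0 : ℝ) < π ^ (((j : ℝ) + 1) / 2) := Real.rpow_pos_of_pos Real.pi_pos _
    field_simp
  · filter_upwards [ae_restrict_mem measurableSet_Ioi] with ρ hρ
    have : 0 < ρ := hρ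
    positivity

/-! ### part b -/

/-- compare with the point `(r cos θ₀ / ‖a‖) • a + (r sin θ₀ / ‖b‖) • b` of `C`,
`r = ‖a‖ cos θ₀ + ‖b‖ sin θ₀` -/
theorem infDist_le {θ₀ : ℝ} (h0 : θ₀ ∈ Ioo 0 (π / 2)) (hμ : Real.sin θ₀ = μ * Real.cos θ₀)
    (hC : ∀ a ∈ K, ∀ b ∈ Kᗮ, ‖b‖ = μ * ‖a‖ → a + b ∈ C) {a b : E} (ha : a ∈ K) (hb : b ∈ Kᗮ) (ha0 : a ≠ 0)
    (hb0 : b ≠ 0) : infDist (a + b) C ≤ |‖b‖ * Real.cos θ₀ - ‖a‖ * Real.sin θ₀| := by
  have hc : 0 < Real.cos θ₀ := Real.cos_pos_of_mem_Ioo ⟨by linarith [h0.1, Real.pi_pos], h0.2⟩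
  have hs : 0 < Real.sin θ₀ := Real.sin_pos_of_pos_of_lt_pi h0.1 (by linarith [h0.2, Real.pi_pos])
  have hA : 0 < ‖a‖ := norm_pos_iff.2 ha0
  have hB : 0 < ‖b‖ := norm_pos_iff.2 hb0
  set r := ‖a‖ * Real.cos θ₀ + ‖b‖ * Real.sin θ₀ with hr
  have hr0 : 0 < r := by positivity
  have hm : (r * Real.cos θ₀ / ‖a‖) • a + (r * Real.sin θ₀ / ‖b‖) • b ∈ C := by
    refine hC _ (K.smul_mem _ ha) _ (Kᗮ.smul_mem _ hb) ?_
    rw [norm_smul, norm_smul, Real.norm_of_nonneg (by positivity), Real.norm_of_nonneg (by positivity), hμ]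
    field_simp
  refine (infDist_le_dist_of_mem hm).trans ?_
  have hab : ⟪a, b⟫ = 0 := Submodule.inner_right_of_mem_orthogonal ha hb
  rw [dist_eq_norm, ← Real.sqrt_sq (norm_nonneg _), ← Real.sqrt_sq_eq_abs]
  refine Real.sqrt_le_sqrt (le_of_eq ?_)
  have e : a + b - ((r * Real.cos θ₀ / ‖a‖) • a + (r * Real.sin θ₀ / ‖b‖) • b) =
      (1 - r * Real.cos θ₀ / ‖a‖) • a + (1 - r * Real.sin θ₀ / ‖b‖) • b := by module
  rw [e, norm_add_sq_real, inner_smul_left, inner_smul_right, hab, norm_smul, norm_smul, mul_pow, mul_pow,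
    Real.norm_eq_abs, Real.norm_eq_abs, sq_abs, sq_abs]
  have h1 := Real.sin_sq_add_cos_sq θ₀
  have e1 : (1 - r * Real.cos θ₀ / ‖a‖) ^ 2 * ‖a‖ ^ 2 = (‖a‖ - r * Real.cos θ₀) ^ 2 := by field_simp
  have e2 : (1 - r * Real.sin θ₀ / ‖b‖) ^ 2 * ‖b‖ ^ 2 = (‖b‖ - r * Real.sin θ₀) ^ 2 := by field_simp
  have e3 : ‖a‖ - r * Real.cos θ₀ = -Real.sin θ₀ * (‖b‖ * Real.cos θ₀ - ‖a‖ * Real.sin θ₀) := by
    rw [hr]; linear_combination (-‖a‖) * h1
  have e4 : ‖b‖ - r * Real.sin θ₀ = Real.cos θ₀ * (‖b‖ * Real.cos θ₀ - ‖a‖ * Real.sin θ₀) := by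
    rw [hr]; linear_combination (-‖b‖) * h1
  rw [e1, e2, e3, e4]
  linear_combination (‖b‖ * Real.cos θ₀ - ‖a‖ * Real.sin θ₀) ^ 2 * h1

/-- Apply the tube inequality to the indicator `G` of `Ioo (-η) η` and `lint_bipolar` to
`f (r, s) = ofReal (g √(r² + s²) / √(r² + s²))` on `{0 < r, 0 < s, |s cos θ₀ - r sin θ₀| < √(r² + s²) sin η}`, `0`
elsewhere (`infDist_le`, `Real.arcsin_lt_iff_lt_sin`); `gauss_radial`. -/
theorem tube_eta (hS : Spl d K k l μ) (hψ : ∀ y, |ψ y| = infDist y C) {θ₀ : ℝ} (h0 : θ₀ ∈ Ioo 0 (π / 2))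
    (hμ : Real.sin θ₀ = μ * Real.cos θ₀) (hC : ∀ a ∈ K, ∀ b ∈ Kᗮ, ‖b‖ = μ * ‖a‖ → a + b ∈ C) {Θ : ℝ}
    (hΘ : 0 ≤ Θ) (hT : ∀ G : ℝ → ℝ≥0∞, Measurable G →
      ∫⁻ y, ENNReal.ofReal (gk d 0 1 y / ‖y‖) * G (Real.arcsin (ψ y / ‖y‖)) ≤
        ENNReal.ofReal Θ * ∫⁻ s in Ioo (-(π / 2)) (π / 2), G s)
    {η c : ℝ} (hη : 0 < η) (h1 : η ≤ θ₀) (h2 : θ₀ + η ≤ π / 2)
    (hc : ∀ θ ∈ Ioo (θ₀ - η) (θ₀ + η), c ≤ Real.cos θ ^ k * Real.sin θ ^ l) :
    unitSphereArea k * unitSphereArea l * c / unitSphereArea (k + l) ≤ Θ := by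
  have hkl := mul_pos (usa_pos k) (usa_pos l)
  have hu := usa_pos (k + l)
  rcases le_or_gt c 0 with hc0 | hc0
  · exact (div_nonpos_of_nonpos_of_nonneg (mul_nonpos_of_nonneg_of_nonpos hkl.le hc0) hu.le).trans hΘ
  have hη2 : η < π / 2 := h1.trans_lt h0.2
  set g : ℝ → ℝ := fun ρ => (√(2 * π) * 1)⁻¹ ^ (k + l + 1) * Real.exp (-ρ ^ 2 / (2 * 1 ^ 2)) with hg
  have hg0 : ∀ ρ, 0 ≤ g ρ := fun ρ => by positivity
  set A : Set (ℝ × ℝ) := {z | 0 < z.1 ∧ 0 < z.2 ∧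
    |z.2 * Real.cos θ₀ - z.1 * Real.sin θ₀| < √(z.1 ^ 2 + z.2 ^ 2) * Real.sin η} with hA
  have hAm : MeasurableSet A := by
    have o : IsOpen {z : ℝ × ℝ | |z.2 * Real.cos θ₀ - z.1 * Real.sin θ₀| < √(z.1 ^ 2 + z.2 ^ 2) * Real.sin η} :=
      isOpen_lt (by fun_prop) (by fun_prop)
    exact ((isOpen_lt continuous_const continuous_fst).inter
      ((isOpen_lt continuous_const continuous_snd).inter o)).measurableSet
  set f : ℝ × ℝ → ℝ≥0∞ := A.indicator fun z =>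
    ENNReal.ofReal (g √(z.1 ^ 2 + z.2 ^ 2) / √(z.1 ^ 2 + z.2 ^ 2)) with hf
  have hfm : Measurable f := Measurable.indicator (by fun_prop) hAm
  have hT' := hT ((Ioo (-η) η).indicator 1) (measurable_one.indicator measurableSet_Ioo)
  have hR : ∫⁻ s in Ioo (-(π / 2)) (π / 2), (Ioo (-η) η).indicator (1 : ℝ → ℝ≥0∞) s =
      ENNReal.ofReal (2 * η) := by
    rw [lintegral_indicator_one measurableSet_Ioo, Measure.restrict_apply measurableSet_Ioo,
      inter_eq_self_of_subset_left (Ioo_subset_Ioo (by linarith) hη2.le), Real.volume_Ioo]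
    congr 1; ring
  have hL : ∫⁻ y : E, f (‖K.starProjection y‖, ‖Kᗮ.starProjection y‖) ≤ ∫⁻ y, ENNReal.ofReal (gk d 0 1 y / ‖y‖) *
      (Ioo (-η) η).indicator (1 : ℝ → ℝ≥0∞) (Real.arcsin (ψ y / ‖y‖)) := by
    refine lintegral_mono fun y => ?_
    by_cases hy : (‖K.starProjection y‖, ‖Kᗮ.starProjection y‖) ∈ A
    swap
    · rw [hf, indicator_of_notMem hy]; exact zero_le
    have hn : √(‖K.starProjection y‖ ^ 2 + ‖Kᗮ.starProjection y‖ ^ 2) = ‖y‖ := by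
      rw [← Real.sqrt_sq (norm_nonneg y), K.norm_sq_eq_add_norm_sq_starProjection y]
    rw [hf, indicator_of_mem hy]
    obtain ⟨ha, hb, hlt⟩ := hy
    simp only [hn] at ha hb hlt ⊢
    have hle := infDist_le h0 hμ hC (K.starProjection_apply_mem y) (Kᗮ.starProjection_apply_mem y)
      (norm_pos_iff.1 ha) (norm_pos_iff.1 hb)
    rw [K.starProjection_add_starProjection_orthogonal y, ← hψ] at hle
    have hy0 : 0 < ‖y‖ := by rw [← hn]; positivity
    have h3 : |ψ y / ‖y‖| < Real.sin η := by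
      rw [abs_div, abs_of_pos hy0, div_lt_iff₀ hy0]; linarith
    have h4 := Real.sin_le_one η
    obtain ⟨h5, h6⟩ := abs_lt.1 h3
    have hmem : Real.arcsin (ψ y / ‖y‖) ∈ Ioo (-η) η := by
      constructor
      · rw [Real.lt_arcsin_iff_sin_lt ⟨by linarith, by linarith⟩ ⟨by linarith, by linarith⟩, Real.sin_neg]
        exact h5
      · rw [Real.arcsin_lt_iff_lt_sin ⟨by linarith, by linarith⟩ ⟨by linarith, by linarith⟩]
        exact h6
    rw [indicator_of_mem hmem, Pi.one_apply, mul_one, ← hS.sum]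
    simp [gk, hg]
  have hI : ∀ θ ∈ Ioo (θ₀ - η) (θ₀ + η), ENNReal.ofReal (c * (unitSphereArea (k + l))⁻¹) ≤ ∫⁻ ρ in Ioi (0 : ℝ),
      ENNReal.ofReal (ρ ^ (k + l + 1) * (Real.cos θ ^ k * Real.sin θ ^ l)) *
        f (ρ * Real.cos θ, ρ * Real.sin θ) := by
    intro θ hθ
    have hcs : 0 < Real.cos θ := Real.cos_pos_of_mem_Ioo ⟨by linarith [hθ.1, Real.pi_pos], by linarith [hθ.2]⟩
    have hsn : 0 < Real.sin θ :=
      Real.sin_pos_of_pos_of_lt_pi (by linarith [hθ.1]) (by linarith [hθ.2, Real.pi_pos])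
    rw [ENNReal.ofReal_mul hc0.le, ← gauss_radial, ← lintegral_const_mul _ (by fun_prop)]
    refine setLIntegral_mono' measurableSet_Ioi fun ρ hρ => ?_
    have hρ' : 0 < ρ := hρ
    have hn : √((ρ * Real.cos θ) ^ 2 + (ρ * Real.sin θ) ^ 2) = ρ := by
      rw [show (ρ * Real.cos θ) ^ 2 + (ρ * Real.sin θ) ^ 2 = ρ ^ 2 by
        linear_combination ρ ^ 2 * Real.sin_sq_add_cos_sq θ, Real.sqrt_sq hρ'.le]
    have hm : (ρ * Real.cos θ, ρ * Real.sin θ) ∈ A := by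
      refine ⟨mul_pos hρ' hcs, mul_pos hρ' hsn, ?_⟩
      simp only [hn]
      rw [show ρ * Real.sin θ * Real.cos θ₀ - ρ * Real.cos θ * Real.sin θ₀ = ρ * Real.sin (θ - θ₀) by
        rw [Real.sin_sub]; ring, abs_mul, abs_of_pos hρ']
      refine mul_lt_mul_of_pos_left (abs_lt.2 ⟨?_, ?_⟩) hρ'
      · rw [← Real.sin_neg]
        exact Real.sin_lt_sin_of_lt_of_le_pi_div_two (by linarith) (by linarith [hθ.2]) (by linarith [hθ.1])
      · exact Real.sin_lt_sin_of_lt_of_le_pi_div_two (by linarith [hθ.1]) hη2.le (by linarith [hθ.2])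
    rw [hf, indicator_of_mem hm]
    simp only [hn]
    rw [← ENNReal.ofReal_mul hc0.le, ← ENNReal.ofReal_mul (by positivity)]
    refine ENNReal.ofReal_le_ofReal ?_
    have h7 : ρ ^ (k + l + 1) * (Real.cos θ ^ k * Real.sin θ ^ l) * (g ρ / ρ) =
        (Real.cos θ ^ k * Real.sin θ ^ l) * (ρ ^ (k + l) * g ρ) := by field_simp; ring
    rw [h7]
    exact mul_le_mul_of_nonneg_right (hc θ hθ) (mul_nonneg (by positivity) (hg0 ρ))
  have hJ : ENNReal.ofReal (c * (unitSphereArea (k + l))⁻¹) * ENNReal.ofReal (2 * η) ≤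
      ∫⁻ θ in Ioo 0 (π / 2), ∫⁻ ρ in Ioi (0 : ℝ),
      ENNReal.ofReal (ρ ^ (k + l + 1) * (Real.cos θ ^ k * Real.sin θ ^ l)) *
        f (ρ * Real.cos θ, ρ * Real.sin θ) := by
    refine le_trans ?_ (lintegral_mono_set (Ioo_subset_Ioo (show 0 ≤ θ₀ - η by linarith) h2))
    refine le_trans (le_of_eq ?_) (setLIntegral_mono' measurableSet_Ioo hI)
    rw [setLIntegral_const, Real.volume_Ioo]
    congr 2; ring
  rw [lint_bipolar hS.dk hS.dl hfm] at hL
  have hfin := ((mul_le_mul_right hJ _).trans hL).trans hT'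
  rw [hR, ← ENNReal.ofReal_mul (by positivity), ← ENNReal.ofReal_mul hkl.le, ← ENNReal.ofReal_mul hΘ,
    ENNReal.ofReal_le_ofReal_iff (by positivity), ← mul_assoc] at hfin
  have := le_of_mul_le_mul_right hfin (by positivity)
  rwa [div_eq_mul_inv, mul_assoc]

/-- `θ₀ = arctan μ`, `cos² θ₀ = k / (k + l)`, `sin² θ₀ = l / (k + l)`; let `η → 0` in `tube_eta` -/
theorem tube (hS : Spl d K k l μ) (hψ : ∀ y, |ψ y| = infDist y C)
    (hC : ∀ a ∈ K, ∀ b ∈ Kᗮ, ‖b‖ = μ * ‖a‖ → a + b ∈ C) {Θ : ℝ} (hΘ : 0 ≤ Θ)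
    (hT : ∀ G : ℝ → ℝ≥0∞, Measurable G →
      ∫⁻ y, ENNReal.ofReal (gk d 0 1 y / ‖y‖) * G (Real.arcsin (ψ y / ‖y‖)) ≤
        ENNReal.ofReal Θ * ∫⁻ s in Ioo (-(π / 2)) (π / 2), G s) :
    cliffordVolume (d - 1) k / unitSphereArea (d - 1) ≤ Θ := by
  have hk : (0 : ℝ) < k := by exact_mod_cast hS.k1
  have hl : (0 : ℝ) < l := by exact_mod_cast hS.l1
  have h0 : Real.arctan μ ∈ Ioo 0 (π / 2) := ⟨Real.arctan_pos.2 hS.pos, Real.arctan_lt_pi_div_two μ⟩
  set θ₀ := Real.arctan μ with hθ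
  have hc : 0 < Real.cos θ₀ := Real.cos_arctan_pos μ
  have hμ : Real.sin θ₀ = μ * Real.cos θ₀ := by
    have := Real.tan_arctan μ
    rw [← hθ, Real.tan_eq_sin_div_cos, div_eq_iff hc.ne'] at this
    exact this
  have hs : 0 < Real.sin θ₀ := by rw [hμ]; exact mul_pos hS.pos hc
  have h1 := Real.sin_sq_add_cos_sq θ₀
  have hq := hS.sq
  have hc2 : Real.cos θ₀ ^ 2 = k / ((k : ℝ) + l) := by
    rw [eq_div_iff (by positivity), ← hq]
    rw [hμ] at h1
    linear_combination (k : ℝ) * h1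
  have hs2 : Real.sin θ₀ ^ 2 = l / ((k : ℝ) + l) := by
    rw [hμ, mul_pow, hc2, ← hq]; ring
  have hd : d - 1 = k + l := by have := hS.sum; omega
  have e : cliffordVolume (d - 1) k = unitSphereArea k * unitSphereArea l * (Real.cos θ₀ ^ k * Real.sin θ₀ ^ l) := by
    rw [hd, cliffordVolume, Nat.add_sub_cancel_left]
    push_cast
    rw [add_sub_cancel_left, ← hc2, ← hs2, ← Real.rpow_natCast (Real.cos θ₀) 2, ← Real.rpow_natCast (Real.sin θ₀) 2,
      ← Real.rpow_mul hc.le, ← Real.rpow_mul hs.le, show ((2 : ℕ) : ℝ) * ((k : ℝ) / 2) = k by push_cast; ring,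
      show ((2 : ℕ) : ℝ) * ((l : ℝ) / 2) = l by push_cast; ring, Real.rpow_natCast, Real.rpow_natCast]
    ring
  have hkl := mul_pos (usa_pos k) (usa_pos l)
  have hu := usa_pos (k + l)
  rw [e, hd, div_le_iff₀ hu, ← le_div_iff₀' hkl]
  refine le_of_forall_lt_imp_le_of_dense fun c hc' => ?_
  have hcont : Continuous fun θ => Real.cos θ ^ k * Real.sin θ ^ l := by fun_prop
  obtain ⟨δ, hδ, hb⟩ := Metric.eventually_nhds_iff.1 (hcont.continuousAt.eventually (lt_mem_nhds hc'))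
  have hη : 0 < min δ (min θ₀ (π / 2 - θ₀)) := lt_min hδ (lt_min h0.1 (by linarith [h0.2]))
  have := tube_eta hS hψ h0 hμ hC hΘ hT hη ((min_le_right _ _).trans (min_le_left _ _))
    (by linarith [(min_le_right δ _).trans (min_le_right θ₀ (π / 2 - θ₀))]) (c := c) fun θ hθ => by
      refine (hb ?_).le
      rw [Real.dist_eq, abs_lt]
      constructor <;> linarith [hθ.1, hθ.2, min_le_left δ (min θ₀ (π / 2 - θ₀))]
  rw [le_div_iff₀' hkl]
  rwa [div_le_iff₀ hu] at this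

theorem cl_le (hS : Spl d K k l μ) : cl d ≤ cliffordVolume (d - 1) k / unitSphereArea (d - 1) := by
  have h1 := hS.k1
  have h2 := hS.l1
  have h3 := hS.sum
  rw [cl, if_neg (by omega)]
  refine csInf_le ⟨0, ?_⟩ ⟨k, h1, by omega, rfl⟩
  rintro _ ⟨j, -, hj, rfl⟩
  have h4 : (0 : ℝ) ≤ ((d - 1 : ℕ) : ℝ) - j := by
    have : (j : ℝ) ≤ ((d - 1 : ℕ) : ℝ) := by exact_mod_cast hj.le
    linarith
  have := usa_pos j
  have := usa_pos (d - 1 - j)
  have := usa_pos (d - 1)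
  unfold cliffordVolume
  positivity

end Crest.Agent.R246.H2
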