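import Crest.Agent.R246.H2.Sum
import Crest.Agent.R246.H2.Class
import Crest.Agent.R246.H2.Tube

/-! Row 246, block H2: final statements (see `R246/Blueprint.lean`). -/

set_option autoImplicit false

namespace Crest.Agent.R246

theorem stRig (hB : Bas) (hG : Geo) (h2 : All fun E => StT2 E) (hT : All fun E => StTube E) : All fun E => StRig E := by
  intro E _ _ _ _ _ d hd h3 C ψ h hF hI
  have hd2 : 2 ≤ d := by omega
  obtain ⟨hS, -, e, hs, -⟩ := hG.smc E d hd hd2 C ψ h
  have c : H2.Ctx d C ψ :=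
    { dim := hd
      three := h3
      smc := h
      integ := e ▸ hS.integ 0 1 one_pos
      supp := hs
      ibp := fun Y ⟨U, hU, hCU, hY⟩ h0 => hG.ibp E d hd hd2 C ψ h Y U hU hCU (hY.of_le (by simp)) h0
      rad := (hG.rad E d hd hd2 C ψ h hF).1
      t2 := h2 E d hd hd2 C ψ h hF }
  obtain ⟨M, hM⟩ := c.exists_M hI
  obtain ⟨B, hB⟩ := c.exists_B hM
  obtain ⟨K, k, l, μ, hK, h1, h1'⟩ := H2.exists_spl hd h3 (c.B_symm hB) (c.B_sq hB)
  exact (H2.cl_le hK).trans
    (H2.tube hK h.abs_eq (c.clifford hB hK h1 h1') c.Th_pos.le (hT E d hd hd2 C ψ h hF))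

end Crest.Agent.R246
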