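import Crest.Agent.R246.H2.Int

/-! Row 246, block H2: the normals span `E`.  Statements frozen (helper70). -/

set_option autoImplicit false
set_option linter.unusedSectionVars false

open MeasureTheory Metric Filter Topology Set Module
open scoped RealInnerProductSpace ENNReal ContDiff Real

noncomputable section

namespace Crest.Agent.R246.H2

variable {E : Type} [NormedAddCommGroup E] [InnerProductSpace ℝ E] [FiniteDimensional ℝ E]
  [MeasurableSpace E] [BorelSpace E]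

variable {d : ℕ} {C : Set E} {ψ : E → ℝ} {a y : E}

theorem nb_tan (h : SMC C ψ) (hy : y ∈ C) (h0 : y ≠ 0) (w : E) :
    ⟪gradient ψ y, w - ⟪gradient ψ y, w⟫ • gradient ψ y⟫ = 0 := by
  rw [inner_sub_right, real_inner_smul_right, real_inner_self_eq_norm_sq, norm_nu h hy h0]; ring

/-- `tangent` for `be ψ a` (`grad_be`), then `⟪H a, ν⟫ = 0` (`hess_symm`, `hess_nu`) -/
theorem nb_hess (h : SMC C ψ) (ha : ∀ y ∈ C, y ≠ 0 → be ψ a y = 0) (hy : y ∈ C) (h0 : y ≠ 0) :
    hess ψ y a = 0 := by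
  refine ext_inner_right ℝ fun w => ?_
  have h1 := tangent h (adm_be h a).2 ha hy h0 (nb_tan h hy h0 w)
  rw [← inner_grad, grad_be h a hy h0, inner_sub_right, real_inner_smul_right,
    hess_symm (((sm_psi h).at hy h0).of_le (WithTop.coe_le_coe.2 (le_top : (2 : ℕ∞) ≤ ⊤))) a (gradient ψ y),
    hess_nu h hy h0] at h1
  simpa using h1

/-- `tangent` for `z ↦ hess ψ z a`, `third_symm`, `third_nu` -/
theorem nb_third (h : SMC C ψ) (ha : ∀ y ∈ C, y ≠ 0 → be ψ a y = 0) (hy : y ∈ C) (h0 : y ≠ 0) :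
    fderiv ℝ (hess ψ) y a = 0 := by
  ext w
  have h1 := tangent h ((sm_hess h).apply (Sm.const a)) (fun z hz h0 => nb_hess h ha hz h0) hy h0
    (nb_tan h hy h0 w)
  rw [(((sm_hess h).diff hy h0).hasFDerivAt.clm_apply (hasFDerivAt_const a y)).fderiv] at h1
  have h2 : fderiv ℝ (hess ψ) y (w - ⟪gradient ψ y, w⟫ • gradient ψ y) a = 0 := by simpa using h1
  rw [third_symm h hy h0, map_sub, map_smul, third_nu h hy h0, nb_hess h ha hy h0] at h2
  simpa using h2

theorem nb_A2 (h : SMC C ψ) (ha : ∀ y ∈ C, y ≠ 0 → be ψ a y = 0) (hy : y ∈ C) (h0 : y ≠ 0) :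
    ‖y‖ * ⟪gradient (A2 ψ) y, a⟫ = 2 * xi a y * A2 ψ y := by
  obtain ⟨T, hT⟩ := exists_trcL (E := E)
  have hd := ((sm_hess h).diff hy h0).hasFDerivAt
  have h1 := (hasStrictFDerivAt_norm_sq y).hasFDerivAt.fun_mul (T.hasFDerivAt.comp y (hd.clm_comp hd))
  have e : A2 ψ = fun z => ‖z‖ ^ 2 * (T ∘ fun z => hess ψ z ∘L hess ψ z) z := by
    ext z; simp only [A2, Function.comp_apply, hT]
  rw [inner_grad, e, h1.fderiv]
  have hy0 : ‖y‖ ≠ 0 := norm_ne_zero_iff.2 h0
  simp [nb_third h ha hy h0, xi, real_inner_smul_right, real_inner_comm y a]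
  field_simp

/-- `ibp` for `Y = (ξ_a · A2 ^ d) • a`: the integrand is `A2 ^ d (‖a‖² + (2 d - 1 - (d - 1)) ξ_a²)`, so
`‖a‖² A2 ^ d = 0` on `C ∖ 0` (`eq_zero`), and `A2_pos` gives `a = 0`. -/
theorem Ctx.nb (c : Ctx d C ψ) (ha : ∀ y ∈ C, y ≠ 0 → be ψ a y = 0) : a = 0 := by
  have h := c.smc
  have hA := adm_A2 h
  have hs : Sm C fun y => xi a y * A2 ψ y ^ d := (sm_xi a).mul (Sm.pow hA.2 d)
  have hI := c.ibp (fun y => (xi a y * A2 ψ y ^ d) • a) (hs.smul (Sm.const a)) fun t ht y => by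
    simp only [hom_xi _ t ht y, hA.1 t ht y]
  obtain ⟨k, rfl⟩ : ∃ k, d = k + 1 := ⟨d - 1, by have := c.three; omega⟩
  rw [c.II_congr (φ' := fun y => A2 ψ y ^ (k + 1) * (‖a‖ ^ 2 + (k + 1 : ℝ) * xi a y ^ 2)) fun y hy h0 => ?_] at hI
  swap
  · have dA := Sm.diff hA.2 hy h0
    have h1 := nb_A2 h ha hy h0
    have h2 : ⟪gradient ψ y, a⟫ = 0 := by rw [real_inner_comm]; exact ha y hy h0
    have hy0 : ‖y‖ ≠ 0 := norm_ne_zero_iff.2 h0
    rw [divT_smul _ (hs.diff hy h0) (differentiableAt_const a), divT_const, inner_prj, h2,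
      grad_mul ((sm_xi a).diff hy h0) (dA.fun_pow _), grad_comp dA (hasDerivAt_pow (k + 1) _), grad_xi a h0]
    have h3 : ⟪a, ‖y‖⁻¹ • y⟫ = xi a y := rfl
    simp only [inner_add_left, inner_sub_left, real_inner_smul_left _ a, real_inner_smul_left a,
      real_inner_self_eq_norm_sq, h3, Nat.add_sub_cancel]
    have h4 : ⟪y, a⟫ = ‖y‖ * xi a y := by
      rw [xi, real_inner_smul_right, real_inner_comm]; field_simp
    rw [h4]
    push_cast
    field_simp
    linear_combination (xi a y * (k + 1) * A2 ψ y ^ k) * h1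
  have h5 := c.eq_zero (((hc_of_adm hA).pow _).mul ((HC.const _).add ((HC.const _).mul ((hc_xi a).pow 2))))
    (fun y hy h0 => mul_nonneg (pow_nonneg (A2_nonneg h hy h0) _) (by positivity)) hI.le
  by_contra hn
  have h6 := c.A2_pos
  rw [c.II_congr (φ' := fun _ => 0) fun y hy h0 => ?_, II_const, zero_mul] at h6
  · exact lt_irrefl _ h6
  have : 0 < ‖a‖ := norm_pos_iff.2 hn
  exact pow_eq_zero_iff (Nat.succ_ne_zero k) |>.1 ((mul_eq_zero.1 (h5 y hy h0)).resolve_right (by positivity))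

end Crest.Agent.R246.H2
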