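import Crest.Agent.R246.H2.NoBeta

/-! Row 246, block H2: the form `Q'`.  Statements frozen (helper70). -/

set_option autoImplicit false
set_option linter.unusedSectionVars false

open MeasureTheory Metric Filter Topology Set Module
open scoped RealInnerProductSpace ENNReal ContDiff Real

noncomputable section

namespace Crest.Agent.R246.H2

variable {E : Type} [NormedAddCommGroup E] [InnerProductSpace ℝ E] [FiniteDimensional ℝ E]
  [MeasurableSpace E] [BorelSpace E]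

variable {d : ℕ} {C : Set E} {ψ f g : E → ℝ}

/-- For `T (α, β, c) = α o + β g + b c` the linear map `z ↦ (Q (T z) o, a ↦ Q (T z) (x a))`, `Q = P - m N`, from
`ℝ × ℝ × E` to `ℝ × Dual E` has a non-zero element in its kernel; `P (T z) (T z) = α² P o o + β² P g g`. -/
theorem abstract_index {V : Type} [AddCommGroup V] [Module ℝ V] (P N : V →ₗ[ℝ] V →ₗ[ℝ] ℝ)
    (hP : ∀ u w, P u w = P w u) (hN : ∀ u, 0 ≤ N u u) {m : ℝ} (hm : 0 < m) (o : V) (b x : E →ₗ[ℝ] V)
    (ho : P o o < 0) (hb : ∀ u c, P u (b c) = 0) (hinj : ∀ c, N (b c) (b c) ≤ 0 → c = 0)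
    (hI : ∀ u, P u o - m * N u o = 0 → (∀ a, P u (x a) - m * N u (x a) = 0) → 0 ≤ P u u - m * N u u)
    (g : V) (hg : P g o = 0) : 0 ≤ P g g ∧ (P g g ≤ 0 → ∃ c, N (g - b c) (g - b c) ≤ 0) := by
  let T : ℝ × ℝ × E →ₗ[ℝ] V := (LinearMap.toSpanSingleton ℝ V o).coprod ((LinearMap.toSpanSingleton ℝ V g).coprod b)
  let Q := P - m • N
  let L : ℝ × ℝ × E →ₗ[ℝ] ℝ × Module.Dual ℝ E := (Q.flip o ∘ₗ T).prod (Q.compl₂ x ∘ₗ T)
  have hL : LinearMap.ker L ≠ ⊥ := LinearMap.ker_ne_bot_of_finrank_lt (by simp)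
  obtain ⟨⟨α, β, c⟩, hz, hz0⟩ := (Submodule.ne_bot_iff _).1 hL
  set u := α • o + (β • g + b c) with hu
  have hT : T (α, β, c) = u := by simp [T, hu]
  have h1 : Q u o = 0 := hT ▸ congrArg Prod.fst (LinearMap.mem_ker.1 hz)
  have h2 : ∀ a, Q u (x a) = 0 := fun a => hT ▸ LinearMap.congr_fun (congrArg Prod.snd (LinearMap.mem_ker.1 hz)) a
  have h3 := hI u (by simpa [Q] using h1) fun a => by simpa [Q] using h2 a
  have h4 : P u u = α ^ 2 * P o o + β ^ 2 * P g g := by
    simp only [hu, map_add, map_smul, LinearMap.add_apply, LinearMap.smul_apply, smul_eq_mul, hb, hP (b c), hg,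
      hP o g]
    ring
  have h5 := mul_nonneg hm.le (hN u)
  have h6 : α ^ 2 * P o o ≤ 0 := mul_nonpos_of_nonneg_of_nonpos (sq_nonneg _) ho.le
  have hα : β ^ 2 * P g g ≤ 0 → α = 0 ∧ N u u ≤ 0 := fun h => by
    refine ⟨?_, nonpos_of_mul_nonpos_right (by linarith) hm⟩
    by_contra hn
    have := mul_neg_of_pos_of_neg (sq_pos_of_ne_zero hn) ho
    linarith
  have hβ : β ≠ 0 := by
    rintro rfl
    obtain ⟨rfl, h7⟩ := hα (by simp)
    have : c = 0 := hinj c (by simpa [hu] using h7)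
    exact hz0 (by simp [this])
  refine ⟨nonneg_of_mul_nonneg_right (a := β ^ 2) (by linarith) (sq_pos_of_ne_zero hβ), fun h => ?_⟩
  obtain ⟨rfl, h7⟩ := hα (mul_nonpos_of_nonneg_of_nonpos (sq_nonneg _) h)
  refine ⟨-β⁻¹ • c, ?_⟩
  have : g - b (-β⁻¹ • c) = β⁻¹ • u := by
    rw [hu, map_smul, zero_smul, zero_add, smul_add, smul_smul, inv_mul_cancel₀ hβ, one_smul, neg_smul,
      sub_neg_eq_add]
  rw [this]
  simp only [map_smul, LinearMap.smul_apply, smul_eq_mul]
  rw [← mul_assoc]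
  exact mul_nonpos_of_nonneg_of_nonpos (mul_self_nonneg _) h7

theorem hc_qd (h : SMC C ψ) (hf : Adm C f) (hg : Adm C g) : HC C (qd ψ f g) := by
  constructor
  · intro t ht y
    simp only [qd, hom_nu h t ht y, hom_grad hf.1 ht, hom_grad hg.1 ht, (adm_A2 h).1 t ht y, hf.1 t ht y,
      hg.1 t ht y, map_smul, real_inner_smul_left, real_inner_smul_right, norm_smul, Real.norm_of_nonneg ht.le]
    field_simp
  · have f1 := Sm.grad hf.2
    have g1 := Sm.grad hg.2
    have n1 := (sm_psi h).grad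
    have := (((Sm.norm.pow 2).mul ((f1.inner g1).sub ((n1.inner f1).mul (n1.inner g1)))).sub
      (Sm.mul (adm_A2 h).2 (Sm.mul hf.2 hg.2))).cont
    refine this.congr fun y _ => ?_
    simp only [qd, inner_prj]

theorem qd_comm (ψ f g : E → ℝ) : qd ψ f g = qd ψ g f := by
  ext y
  simp only [qd, inner_prj, real_inner_comm (gradient f y) (gradient g y)]
  ring

theorem Ctx.Qf_eq (c : Ctx d C ψ) (hf : Adm C f) (hg : Adm C g) :
    Qf d C ψ f g = II d C (qd ψ f g) - ((d : ℝ) - 1) * II d C fun y => f y * g y := by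
  rw [← II_mul, ← c.II_sub (hc_qd c.smc hf hg) ((HC.const _).mul ((hc_of_adm hf).mul (hc_of_adm hg))), Qf, II]
  congr with y
  rw [qd]; ring

/-- `ibp` for `Y = (‖y‖ f) • H a` (`divT_smul`, `divT_hess`, `grad_be`, `⟪H a, y⟫ = 0 = ⟪H a, ν⟫`) -/
theorem Ctx.qd_be (c : Ctx d C ψ) (hf : Adm C f) (a : E) : II d C (qd ψ f (be ψ a)) = 0 := by
  have h := c.smc
  have h1 : Sm C fun y => ‖y‖ * f y := Sm.norm.mul hf.2
  have h2 : Sm C fun y => hess ψ y a := (sm_hess h).apply (Sm.const a)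
  rw [← c.ibp (fun y => (‖y‖ * f y) • hess ψ y a) (h1.smul h2) fun t ht y => by
    simp only [hess_smul h ht, hf.1 t ht y, norm_smul, Real.norm_of_nonneg ht.le, smul_apply, smul_smul]
    congr 1; field_simp]
  refine c.II_congr fun y hy h0 => ?_
  have hs := hess_symm (ψ := ψ) (y := y)
    (((sm_psi h).at hy h0).of_le (WithTop.coe_le_coe.2 (le_top : (2 : ℕ∞) ≤ ⊤)))
  have h3 : ⟪y, hess ψ y a⟫ = 0 := by rw [← hs, hess_self h hy h0, inner_zero_left]
  have h4 : ⟪gradient ψ y, hess ψ y a⟫ = 0 := by rw [← hs, hess_nu h hy h0, inner_zero_left]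
  rw [divT_smul _ (h1.diff hy h0) (h2.diff hy h0), divT_hess h a hy h0, qd, grad_be h a hy h0,
    grad_mul (Sm.norm.diff hy h0) (Sm.diff hf.2 hy h0), grad_norm h0]
  simp only [inner_prj, h4, inner_add_left, real_inner_smul_left, real_inner_smul_right, h3,
    real_inner_comm y (hess ψ y a), A2]
  ring

/-- `abstract_index` on the submodule `{f | Adm C f}` of `E → ℝ` (`LinearMap.mk₂`) -/
theorem Ctx.index (c : Ctx d C ψ) (hI : Idx d C ψ) (hg : Adm C g) (h0 : II d C (fun y => A2 ψ y * g y) = 0) :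
    0 ≤ II d C (qd ψ g g) ∧ (II d C (qd ψ g g) ≤ 0 → ∃ a, ∀ y ∈ C, y ≠ 0 → g y = be ψ a y) := by
  have h := c.smc
  let V : Submodule ℝ (E → ℝ) :=
    { carrier := {f | Adm C f}
      add_mem' := fun {f g} hf hg => ⟨fun t ht y => by simp only [Pi.add_apply, hf.1 t ht y, hg.1 t ht y],
        Sm.add hf.2 hg.2⟩
      zero_mem' := ⟨fun _ _ _ => rfl, Sm.const 0⟩
      smul_mem' := fun a f hf => ⟨fun t ht y => by simp only [Pi.smul_apply, hf.1 t ht y],
        Sm.smul (Sm.const a) hf.2⟩ }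
  have pa : ∀ f f' g : V, II d C (qd ψ ↑(f + f') g) = II d C (qd ψ f g) + II d C (qd ψ f' g) := fun f f' g => by
    rw [← c.II_add (hc_qd h f.2 g.2) (hc_qd h f'.2 g.2)]
    refine c.II_congr fun y hy h0 => ?_
    have : gradient (f.1 + f'.1) y = _ := grad_add (Sm.diff f.2.2 hy h0) (Sm.diff f'.2.2 hy h0)
    simp only [qd, this, map_add, inner_add_left, Submodule.coe_add, Pi.add_apply]
    ring
  have ps : ∀ (a : ℝ) (f g : V), II d C (qd ψ ↑(a • f) g) = a • II d C (qd ψ f g) := fun a f g => by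
    rw [smul_eq_mul, ← II_mul]
    refine c.II_congr fun y hy h0 => ?_
    have : gradient (a • f.1) y = _ :=
      grad_comp (Sm.diff f.2.2 hy h0) ((hasDerivAt_id' (f.1 y)).const_mul a)
    simp only [qd, this, map_smul, real_inner_smul_left, Submodule.coe_smul, Pi.smul_apply, smul_eq_mul]
    ring
  have na : ∀ f f' g : V, II d C (fun y => (f + f').1 y * g.1 y) =
      II d C (fun y => f.1 y * g.1 y) + II d C (fun y => f'.1 y * g.1 y) := fun f f' g => by
    rw [← c.II_add ((hc_of_adm f.2).mul (hc_of_adm g.2)) ((hc_of_adm f'.2).mul (hc_of_adm g.2))]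
    simp only [Submodule.coe_add, Pi.add_apply, add_mul]
  have ns : ∀ (a : ℝ) (f g : V), II d C (fun y => (a • f).1 y * g.1 y) = a • II d C (fun y => f.1 y * g.1 y) :=
    fun a f g => by
    rw [smul_eq_mul, ← II_mul]
    simp only [Submodule.coe_smul, Pi.smul_apply, smul_eq_mul, mul_assoc]
  let P : V →ₗ[ℝ] V →ₗ[ℝ] ℝ := LinearMap.mk₂ ℝ (fun f g => II d C (qd ψ f g)) pa ps
    (fun f g g' => by rw [qd_comm, pa, qd_comm ψ g, qd_comm ψ g']) fun a f g => by rw [qd_comm, ps, qd_comm]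
  let N : V →ₗ[ℝ] V →ₗ[ℝ] ℝ := LinearMap.mk₂ ℝ (fun f g => II d C fun y => f.1 y * g.1 y) na ns
    (fun f g g' => by simpa only [mul_comm] using na g g' f) fun a f g => by simpa only [mul_comm] using ns a g f
  let o : V := ⟨fun _ => 1, fun _ _ _ => rfl, Sm.const 1⟩
  let b : E →ₗ[ℝ] V :=
    { toFun := fun a => ⟨be ψ a, adm_be h a⟩
      map_add' := fun a a' => Subtype.ext (funext fun y => inner_add_left _ _ _)
      map_smul' := fun t a => Subtype.ext (funext fun y => real_inner_smul_left _ _ _) }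
  let x : E →ₗ[ℝ] V :=
    { toFun := fun a => ⟨xi a, hom_xi a, sm_xi a⟩
      map_add' := fun a a' => Subtype.ext (funext fun y => inner_add_left _ _ _)
      map_smul' := fun t a => Subtype.ext (funext fun y => real_inner_smul_left _ _ _) }
  have po : ∀ f : V, P f o = -II d C fun y => A2 ψ y * f.1 y := fun f => by
    rw [← neg_one_mul, ← II_mul]
    exact c.II_congr fun y _ _ => by simp [qd, o]
  have nz : ∀ f : V, N f f ≤ 0 → ∀ y ∈ C, y ≠ 0 → f.1 y = 0 := fun f hf y hy h0 => mul_self_eq_zero.1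
    (c.eq_zero ((hc_of_adm f.2).mul (hc_of_adm f.2)) (fun y _ _ => mul_self_nonneg _) hf y hy h0)
  have h3 : (3 : ℝ) ≤ d := by exact_mod_cast c.three
  obtain ⟨h1, h2⟩ := abstract_index P N (fun u w => congrArg (II d C) (qd_comm _ _ _))
    (fun u => c.II_nonneg fun y _ _ => mul_self_nonneg _) (show 0 < (d : ℝ) - 1 by linarith) o b x
    (by rw [po]; simpa [o] using c.A2_pos) (fun u a => c.qd_be u.2 a) (fun a ha => c.nb (nz _ ha))
    (fun u hu hx => (hI u u.2 ((c.Qf_eq u.2 o.2).trans hu) fun a => (c.Qf_eq u.2 (x a).2).trans (hx a)).trans_eq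
      (c.Qf_eq u.2 u.2)) ⟨g, hg⟩ (by rw [po, h0, neg_zero])
  refine ⟨h1, fun h4 => (h2 h4).imp fun a ha y hy h0 => sub_eq_zero.1 (nz _ ha y hy h0)⟩

end Crest.Agent.R246.H2
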