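import Crest.Agent.R246.H2.Quad
import Crest.Agent.R246.H2.Hersch

/-! Row 246, block H2: `ŷ = M ν`.  Statements frozen (helper70). -/

set_option autoImplicit false
set_option linter.unusedSectionVars false

open MeasureTheory Metric Filter Topology Set Module
open scoped RealInnerProductSpace ENNReal ContDiff Real

noncomputable section

namespace Crest.Agent.R246.H2

variable {E : Type} [NormedAddCommGroup E] [InnerProductSpace ℝ E] [FiniteDimensional ℝ E]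
  [MeasurableSpace E] [BorelSpace E]

variable {d : ℕ} {C : Set E} {ψ : E → ℝ} {v y : E}

/-- `a i = e i - c ⟪v, e i⟫ v` with `c = 1 / (1 + √(1 - ‖v‖²))`, `2 c - c² ‖v‖² = 1` -/
theorem exists_frame (hv : ‖v‖ < 1) : ∃ a : Fin (finrank ℝ E) → E,
    (∀ x x' : E, ∑ i, ⟪a i, x⟫ * ⟪a i, x'⟫ = ⟪x, x'⟫ - ⟪v, x⟫ * ⟪v, x'⟫) ∧
      ∑ i, ‖a i‖ ^ 2 = finrank ℝ E - ‖v‖ ^ 2 := by
  let e := stdOrthonormalBasis ℝ E
  have h0 : 0 ≤ 1 - ‖v‖ ^ 2 := by nlinarith [norm_nonneg v]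
  obtain ⟨c, hc⟩ : ∃ c : ℝ, 2 * c - c ^ 2 * ‖v‖ ^ 2 = 1 := by
    refine ⟨1 / (1 + √(1 - ‖v‖ ^ 2)), ?_⟩
    have h1 := Real.sq_sqrt h0
    have h2 : 0 < 1 + √(1 - ‖v‖ ^ 2) := by positivity
    field_simp
    linear_combination -h1
  refine ⟨fun i => e i - (c * ⟪v, e i⟫) • v, fun x x' => ?_, ?_⟩
  · have h1 : ∀ i x, ⟪e i - (c * ⟪v, e i⟫) • v, x⟫ = ⟪e i, x - (c * ⟪v, x⟫) • v⟫ := fun i x => by
      rw [inner_sub_left, inner_sub_right, real_inner_smul_left, real_inner_smul_right, real_inner_comm v]; ring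
    simp only [h1]
    simp only [fun i => real_inner_comm (x - (c * ⟪v, x⟫) • v) (e i)]
    rw [e.sum_inner_mul_inner]
    simp only [inner_sub_left, inner_sub_right, real_inner_smul_left, real_inner_smul_right,
      real_inner_self_eq_norm_sq, real_inner_comm v x]
    linear_combination (-(⟪v, x⟫ * ⟪v, x'⟫)) * hc
  · have h1 : ∀ i, ‖e i - (c * ⟪v, e i⟫) • v‖ ^ 2 = 1 - ⟪v, e i⟫ * ⟪e i, v⟫ := fun i => by
      rw [norm_sub_sq_real, e.norm_eq_one, real_inner_smul_right, norm_smul, mul_pow, Real.norm_eq_abs, sq_abs,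
        real_inner_comm v]
      linear_combination (-⟪v, e i⟫ ^ 2) * hc
    simp only [h1]
    rw [Finset.sum_sub_distrib, e.sum_inner_mul_inner, real_inner_self_eq_norm_sq]
    simp

theorem sum_grad_inv (hv : ‖v‖ < 1) (h0 : y ≠ 0) : gradient (fun z => (1 - xi v z)⁻¹) y =
    (1 / (1 - xi v y) ^ 2) • ‖y‖⁻¹ • (v - xi v y • ‖y‖⁻¹ • y) := by
  have h1 : HasDerivAt (fun t : ℝ => (1 - t)⁻¹) (1 / (1 - xi v y) ^ 2) (xi v y) := by
    simpa using ((hasDerivAt_id' (xi v y)).const_sub 1).fun_inv (one_sub_xi_pos hv y).ne'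
  rw [grad_comp ((sm_xi (C := univ) v).diff (mem_univ _) h0) h1, grad_xi v h0]

theorem grad_hg (hv : ‖v‖ < 1) (a : E) (h0 : y ≠ 0) : gradient (hg v a) y =
    (‖y‖ * (1 - xi v y))⁻¹ • (a - (xi a y / (1 - xi v y)) • (‖y‖⁻¹ • y - v)) := by
  have hh := (one_sub_xi_pos hv y).ne'
  have d : ∀ b : E, DifferentiableAt ℝ (xi b) y := fun b => (sm_xi (C := univ) b).diff (mem_univ _) h0
  have d2 : DifferentiableAt ℝ (fun z => (1 - xi v z)⁻¹) y := ((d v).const_sub 1).fun_inv hh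
  have e : hg v a = fun z => (fun t => t - ⟪a, v⟫ / (1 - ‖v‖ ^ 2)) (xi a z * (1 - xi v z)⁻¹) := by
    ext z; simp only [hg, div_eq_mul_inv]
  rw [e, grad_comp ((d a).fun_mul d2) ((hasDerivAt_id' _).sub_const _), one_smul, grad_mul (d a) d2,
    sum_grad_inv hv h0, grad_xi a h0]
  have hy : ‖y‖ ≠ 0 := norm_ne_zero_iff.2 h0
  match_scalars <;> field_simp <;> ring

/-- expand with `inner_prj`; every term is a multiple of `‖a i‖²` or of a product `⟪a i, x⟫ ⟪a i, x'⟫` with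
`x, x' ∈ {ŷ, v, ν}`; `⟪ν, ŷ⟫ = 0`, `‖ν‖ = ‖ŷ‖ = 1`. -/
theorem sum_qd (h : SMC C ψ) (hd : finrank ℝ E = d + 1) (hv : ‖v‖ < 1) {ι : Type} [Fintype ι] {a : ι → E}
    (h1 : ∀ x x' : E, ∑ i, ⟪a i, x⟫ * ⟪a i, x'⟫ = ⟪x, x'⟫ - ⟪v, x⟫ * ⟪v, x'⟫)
    (h2 : ∑ i, ‖a i‖ ^ 2 = finrank ℝ E - ‖v‖ ^ 2) (hy : y ∈ C) (h0 : y ≠ 0) :
    ∑ i, qd ψ (hg v (a i)) (hg v (a i)) y =
      ((d : ℝ) - 1) * (1 / (1 - xi v y) ^ 2) - (1 - ‖v‖ ^ 2)⁻¹ * A2 ψ y := by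
  have hh := (one_sub_xi_pos hv y).ne'
  have hy0 : ‖y‖ ≠ 0 := norm_ne_zero_iff.2 h0
  have hV : 1 - ‖v‖ ^ 2 ≠ 0 := by nlinarith [norm_nonneg v]
  have hn : ⟪gradient ψ y, gradient ψ y⟫ = 1 := by rw [real_inner_self_eq_norm_sq, norm_nu h hy h0]; norm_num
  have hνy : ⟪gradient ψ y, ‖y‖⁻¹ • y⟫ = 0 := by rw [inner_smul_right, nu_self h hy h0, mul_zero]
  have hyy : ⟪‖y‖⁻¹ • y, ‖y‖⁻¹ • y⟫ = 1 := by
    rw [real_inner_self_eq_norm_sq, show ‖‖y‖⁻¹ • y‖ = 1 from norm_smul_inv_norm (𝕜 := ℝ) h0]; norm_num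
  simp only [qd, grad_hg hv _ h0, inner_prj]
  simp only [hg, xi] at hh ⊢
  generalize ‖y‖⁻¹ • y = x at *
  generalize gradient ψ y = ν at *
  set s := ⟪v, x⟫ with hs
  set β := ⟪v, ν⟫ with hβ
  have e : ∀ b : E, ‖y‖ ^ 2 * (⟪(‖y‖ * (1 - s))⁻¹ • (b - (⟪b, x⟫ / (1 - s)) • (x - v)),
      (‖y‖ * (1 - s))⁻¹ • (b - (⟪b, x⟫ / (1 - s)) • (x - v))⟫ -
      ⟪ν, (‖y‖ * (1 - s))⁻¹ • (b - (⟪b, x⟫ / (1 - s)) • (x - v))⟫ *
        ⟪ν, (‖y‖ * (1 - s))⁻¹ • (b - (⟪b, x⟫ / (1 - s)) • (x - v))⟫) -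
      A2 ψ y * ((⟪b, x⟫ / (1 - s) - ⟪b, v⟫ / (1 - ‖v‖ ^ 2)) * (⟪b, x⟫ / (1 - s) - ⟪b, v⟫ / (1 - ‖v‖ ^ 2))) =
      (1 / (1 - s) ^ 2) * ‖b‖ ^ 2 +
      ((-2 * (1 - s) + (1 - 2 * s + ‖v‖ ^ 2) - β ^ 2) / (1 - s) ^ 4 - A2 ψ y / (1 - s) ^ 2) * (⟪b, x⟫ * ⟪b, x⟫) +
      (2 / (1 - s) ^ 3 + 2 * A2 ψ y / ((1 - s) * (1 - ‖v‖ ^ 2))) * (⟪b, x⟫ * ⟪b, v⟫) -
      (1 / (1 - s) ^ 2) * (⟪b, ν⟫ * ⟪b, ν⟫) - (2 * β / (1 - s) ^ 3) * (⟪b, ν⟫ * ⟪b, x⟫) -
      (A2 ψ y / (1 - ‖v‖ ^ 2) ^ 2) * (⟪b, v⟫ * ⟪b, v⟫) := fun b => by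
    simp only [inner_sub_left, inner_sub_right, real_inner_smul_left, real_inner_smul_right, hyy, hνy,
      real_inner_comm b x, real_inner_comm b v, real_inner_comm b ν, real_inner_comm v x, real_inner_comm v ν,
      ← hs, ← hβ]
    simp only [real_inner_self_eq_norm_sq]
    field_simp
    ring
  simp only [e, Finset.sum_add_distrib, Finset.sum_sub_distrib, ← Finset.mul_sum, h1, h2, hd, hyy, hn, hνy,
    real_inner_comm v x, ← hs, ← hβ]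
  simp only [real_inner_self_eq_norm_sq]
  push_cast
  field_simp
  ring

/-- `s = ξ_v`, `h = 1 - s`, `p = ‖v‖² - β_v²`.  `ibp` for `Y = h⁻¹ • v` gives `J := II ((p - s²)/h²) = m II (s/h)`;
`(1 - p)/h² = 1 + 2 s/h - (p - s²)/h²`, `p - s² ≥ 0` (Bessel for the orthonormal pair `ν, ŷ`), `m ≥ 2`. -/
theorem Ctx.log_ineq (c : Ctx d C ψ) (hv : ‖v‖ < 1) :
    II d C (fun y => (1 - ‖v‖ ^ 2 + be ψ v y ^ 2) / (1 - xi v y) ^ 2) ≤ Th d C := by
  have h := c.smc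
  have hp := one_sub_xi_pos hv
  have hH : HC C fun y => 1 - xi v y := (HC.const 1).sub (hc_xi v)
  have hβ := hc_of_adm (adm_be h v)
  have c1 : HC C fun y => xi v y / (1 - xi v y) := (hc_xi v).div hH fun y _ _ => (hp y).ne'
  have c2 : HC C fun y => (‖v‖ ^ 2 - be ψ v y ^ 2 - xi v y ^ 2) / (1 - xi v y) ^ 2 :=
    (((HC.const _).sub (hβ.pow 2)).sub ((hc_xi v).pow 2)).div (hH.pow 2) fun y _ _ => pow_ne_zero 2 (hp y).ne'
  have hs : Sm C fun y => (1 - xi v y)⁻¹ := Sm.of_ne fun y hy =>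
    (contDiffAt_const.sub ((sm_xi (C := univ) v).at (mem_univ _) hy)).inv (hp y).ne'
  have hI := c.ibp (fun y => (1 - xi v y)⁻¹ • v) (hs.smul (Sm.const v)) fun t ht y => by
    simp only [hom_xi _ t ht y]
  rw [c.II_congr (φ' := fun y => (‖v‖ ^ 2 - be ψ v y ^ 2 - xi v y ^ 2) / (1 - xi v y) ^ 2 -
    ((d : ℝ) - 1) * (xi v y / (1 - xi v y))) fun y hy h0 => ?_, c.II_sub c2 ((HC.const _).mul c1), II_mul] at hI
  swap
  · have hνy : ⟪gradient ψ y, ‖y‖⁻¹ • y⟫ = 0 := by rw [inner_smul_right, nu_self h hy h0, mul_zero]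
    have hy0 : ‖y‖ ≠ 0 := norm_ne_zero_iff.2 h0
    have := (hp y).ne'
    rw [divT_smul _ (hs.diff hy h0) (differentiableAt_const v), divT_const, sum_grad_inv hv h0, inner_prj]
    simp only [be, xi] at this ⊢
    generalize ‖y‖⁻¹ • y = x at *
    simp only [inner_sub_left, inner_sub_right, real_inner_smul_left, real_inner_smul_right, hνy,
      real_inner_comm v x, real_inner_comm v (gradient ψ y), real_inner_self_eq_norm_sq]
    field_simp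
    ring
  have hJ : 0 ≤ II d C fun y => (‖v‖ ^ 2 - be ψ v y ^ 2 - xi v y ^ 2) / (1 - xi v y) ^ 2 := by
    refine c.II_nonneg fun y hy h0 => div_nonneg ?_ (sq_nonneg _)
    have hνy : ⟪gradient ψ y, ‖y‖⁻¹ • y⟫ = 0 := by rw [inner_smul_right, nu_self h hy h0, mul_zero]
    have hn : ⟪gradient ψ y, gradient ψ y⟫ = 1 := by rw [real_inner_self_eq_norm_sq, norm_nu h hy h0]; norm_num
    have hyy : ⟪‖y‖⁻¹ • y, ‖y‖⁻¹ • y⟫ = 1 := by
      rw [real_inner_self_eq_norm_sq, show ‖‖y‖⁻¹ • y‖ = 1 from norm_smul_inv_norm (𝕜 := ℝ) h0]; norm_num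
    simp only [be, xi]
    generalize ‖y‖⁻¹ • y = x at *
    generalize gradient ψ y = ν at *
    have := real_inner_self_nonneg (x := v - ⟪v, ν⟫ • ν - ⟪v, x⟫ • x)
    simp only [inner_sub_left, inner_sub_right, real_inner_smul_left, real_inner_smul_right, hνy, hn, hyy,
      real_inner_comm v x, real_inner_comm v ν, real_inner_comm ν x] at this
    rw [real_inner_self_eq_norm_sq] at this
    linarith
  rw [c.II_congr (φ' := fun y => 1 + 2 * (xi v y / (1 - xi v y)) -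
    (‖v‖ ^ 2 - be ψ v y ^ 2 - xi v y ^ 2) / (1 - xi v y) ^ 2) fun y _ _ => by
      have := (hp y).ne'; field_simp; ring,
    c.II_sub ((HC.const _).add ((HC.const _).mul c1)) c2, c.II_add (HC.const _) ((HC.const _).mul c1), II_mul,
    II_const]
  have h3 : (3 : ℝ) ≤ d := by exact_mod_cast c.three
  have : 0 ≤ II d C fun y => xi v y / (1 - xi v y) := by
    by_contra hn
    nlinarith [not_le.1 hn]
  nlinarith

theorem Ctx.sum_II (c : Ctx d C ψ) (hv : ‖v‖ < 1) {ι : Type} [Fintype ι] {a : ι → E}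
    (h1 : ∀ x x' : E, ∑ i, ⟪a i, x⟫ * ⟪a i, x'⟫ = ⟪x, x'⟫ - ⟪v, x⟫ * ⟪v, x'⟫)
    (h2 : ∑ i, ‖a i‖ ^ 2 = finrank ℝ E - ‖v‖ ^ 2) : ∑ i, II d C (qd ψ (hg v (a i)) (hg v (a i))) =
      ((d : ℝ) - 1) * II d C (fun y => 1 / (1 - xi v y) ^ 2) - (1 - ‖v‖ ^ 2)⁻¹ * II d C (A2 ψ) := by
  have c1 : HC C fun y => 1 / (1 - xi v y) ^ 2 := (HC.const _).div (((HC.const 1).sub (hc_xi v)).pow 2)
    fun y _ _ => pow_ne_zero 2 (one_sub_xi_pos hv y).ne'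
  rw [← c.II_sum _ fun i => hc_qd c.smc (adm_hg hv _) (adm_hg hv _),
    c.II_congr fun y hy h0 => sum_qd c.smc c.dim hv h1 h2 hy h0,
    c.II_sub ((HC.const _).mul c1) ((HC.const _).mul (hc_of_adm (adm_A2 c.smc))), II_mul, II_mul]

/-- `hersch`, `exists_frame`, `sum_qd`, `index`, `t2`, `log_ineq`, `eq_zero`, `nb` -/
theorem Ctx.balanced (c : Ctx d C ψ) (hI : Idx d C ψ) (a : E) : II d C (fun y => A2 ψ y * hg 0 a y) = 0 := by
  have h := c.smc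
  obtain ⟨v, hv, hb⟩ := c.hersch
  obtain ⟨e, h1, h2⟩ := exists_frame hv
  have hp := one_sub_xi_pos hv
  have hV : 0 < 1 - ‖v‖ ^ 2 := by nlinarith [norm_nonneg v]
  have hH : HC C fun y => (1 - xi v y) ^ 2 := ((HC.const 1).sub (hc_xi v)).pow 2
  have c1 : HC C fun y => 1 / (1 - xi v y) ^ 2 := (HC.const _).div hH fun y _ _ => pow_ne_zero 2 (hp y).ne'
  have c2 : HC C fun y => be ψ v y ^ 2 / (1 - xi v y) ^ 2 :=
    ((hc_of_adm (adm_be h v)).pow 2).div hH fun y _ _ => pow_ne_zero 2 (hp y).ne'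
  have h3 : 0 ≤ ∑ i, II d C (qd ψ (hg v (e i)) (hg v (e i))) :=
    Finset.sum_nonneg fun i _ => (c.index hI (adm_hg hv _) (hb _)).1
  rw [c.sum_II hv h1 h2] at h3
  have h4 := c.log_ineq hv
  rw [c.II_congr (φ' := fun y => (1 - ‖v‖ ^ 2) * (1 / (1 - xi v y) ^ 2) + be ψ v y ^ 2 / (1 - xi v y) ^ 2)
    fun y _ _ => by ring, c.II_add ((HC.const _).mul c1) c2, II_mul] at h4
  have h5 := c.t2
  have h6 : (3 : ℝ) ≤ d := by exact_mod_cast c.three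
  rw [sub_nonneg, inv_mul_le_iff₀ hV] at h3
  have h7 := c.eq_zero c2 (fun y _ _ => by positivity) (by
    by_contra hn
    nlinarith [not_le.1 hn])
  have h8 : v = 0 := c.nb fun y hy h0 => by simpa [(hp y).ne'] using h7 y hy h0
  exact h8 ▸ hb a

/-- `sum_qd` with `v = 0` and an orthonormal basis: the sum of the nonnegative numbers `Q'(ξ_{e i})` is `≤ 0`,
so `ξ_{e i} = β_{c i}`; `M x = ∑ ⟪c i, x⟫ e i`. -/
theorem Ctx.exists_M (c : Ctx d C ψ) (hI : Idx d C ψ) :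
    ∃ M : E →L[ℝ] E, ∀ y ∈ C, y ≠ 0 → M (gradient ψ y) = ‖y‖⁻¹ • y := by
  let e := stdOrthonormalBasis ℝ E
  have hv : ‖(0 : E)‖ < 1 := by simp
  have h1 := c.sum_II hv (a := e) (fun x x' => by
    simp only [fun i => real_inner_comm x (e i)]; simp [e.sum_inner_mul_inner]) (by simp)
  have h2 := fun i => c.index hI (adm_hg hv (e i)) (c.balanced hI _)
  have h3 : ∑ i, II d C (qd ψ (hg 0 (e i)) (hg 0 (e i))) = 0 := by
    refine le_antisymm ?_ (Finset.sum_nonneg fun i _ => (h2 i).1)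
    have := c.t2
    simp only [xi, inner_zero_left, II_const, norm_zero] at h1
    rw [h1]
    norm_num
    exact this
  choose a ha using fun i => (h2 i).2
    ((Finset.sum_eq_zero_iff_of_nonneg fun i _ => (h2 i).1).1 h3 i (Finset.mem_univ i)).le
  refine ⟨∑ i, (innerSL ℝ (a i)).smulRight (e i), fun y hy h0 => ?_⟩
  rw [← e.sum_repr' (‖y‖⁻¹ • y), sum_apply]
  refine Finset.sum_congr rfl fun i _ => ?_
  have := ha i y hy h0
  simp only [hg, xi, be, inner_zero_left, inner_zero_right, zero_div, sub_zero, div_one] at this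
  rw [this]
  rfl

end Crest.Agent.R246.H2
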